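import Mathlib
import Crest.Prelude.Def_ModularData

/-! Bounded-recovery helper: basic facts on the line calculus. -/

set_option autoImplicit false

namespace Crest.Agent.H3.BR

open MeasureTheory Filter Topology Crest.OpAlg
open scoped BoundedContinuousFunction InnerProductSpace

section calculus

variable {H : Type*} [NormedAddCommGroup H] [InnerProductSpace ℂ H] [CompleteSpace H]

/-- bounded continuous functions on the line -/
abbrev BC : Type := BoundedContinuousFunction ℝ ℂ

lemma norm_apply_le (D : LineCalculus H) (f : BC) : ‖D.apply f‖ ≤ ‖f‖ :=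
  NonUnitalStarAlgHom.norm_apply_le D.apply f

lemma norm_apply_apply_le (D : LineCalculus H) (f : BC) (x : H) :
    ‖D.apply f x‖ ≤ ‖f‖ * ‖x‖ :=
  (ContinuousLinearMap.le_opNorm _ _).trans
    (mul_le_mul_of_nonneg_right (norm_apply_le D f) (norm_nonneg _))

lemma character_apply (t u : ℝ) :
    LineCalculus.character t u = Complex.exp (Complex.I * ((t * u : ℝ) : ℂ)) := rfl

lemma character_add (s t : ℝ) :
    LineCalculus.character (s + t) = LineCalculus.character s * LineCalculus.character t := by
  ext u
  simp only [character_apply, BoundedContinuousFunction.mul_apply, ← Complex.exp_add]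
  congr 1
  push_cast
  ring

lemma character_zero : LineCalculus.character 0 = 1 := by
  ext u
  simp [character_apply]

lemma star_character (t : ℝ) :
    star (LineCalculus.character t) = LineCalculus.character (-t) := by
  ext u
  simp only [character_apply, BoundedContinuousFunction.star_apply, RCLike.star_def,
    ← Complex.exp_conj]
  congr 1
  simp

lemma norm_character_apply (t u : ℝ) : ‖LineCalculus.character t u‖ = 1 := by
  rw [character_apply, Complex.norm_exp]
  simp

lemma wave_add (D : LineCalculus H) (s t : ℝ) : D.wave (s + t) = D.wave s * D.wave t := by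
  simp [LineCalculus.wave, character_add]

lemma wave_zero (D : LineCalculus H) : D.wave 0 = 1 := by
  simp [LineCalculus.wave, character_zero]

lemma star_wave (D : LineCalculus H) (t : ℝ) : star (D.wave t) = D.wave (-t) := by
  simp [LineCalculus.wave, ← star_character, map_star]

lemma wave_neg_mul (D : LineCalculus H) (t : ℝ) : D.wave (-t) * D.wave t = 1 := by
  rw [← wave_add]; simp [wave_zero]

lemma wave_mul_neg (D : LineCalculus H) (t : ℝ) : D.wave t * D.wave (-t) = 1 := by
  rw [← wave_add]; simp [wave_zero]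

lemma wave_neg_apply (D : LineCalculus H) (t : ℝ) (x : H) : D.wave (-t) (D.wave t x) = x := by
  calc D.wave (-t) (D.wave t x) = (D.wave (-t) * D.wave t) x := rfl
    _ = x := by rw [wave_neg_mul]; rfl

lemma wave_apply_neg (D : LineCalculus H) (t : ℝ) (x : H) : D.wave t (D.wave (-t) x) = x := by
  simpa using wave_neg_apply D (-t) x

lemma inner_wave_left (D : LineCalculus H) (t : ℝ) (x y : H) :
    inner ℂ (D.wave t x) y = inner ℂ x (D.wave (-t) y) := by
  rw [← star_wave, ContinuousLinearMap.star_eq_adjoint, ContinuousLinearMap.adjoint_inner_right]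

lemma norm_wave_apply (D : LineCalculus H) (t : ℝ) (x : H) : ‖D.wave t x‖ = ‖x‖ := by
  have h : (‖D.wave t x‖ : ℝ) ^ 2 = ‖x‖ ^ 2 := by
    have h1 : inner ℂ (D.wave t x) (D.wave t x) = inner ℂ x x := by
      rw [inner_wave_left, wave_neg_apply]
    rw [← inner_self_eq_norm_sq (𝕜 := ℂ), ← inner_self_eq_norm_sq (𝕜 := ℂ), h1]
  exact (pow_left_inj₀ (norm_nonneg _) (norm_nonneg _) two_ne_zero).1 h

lemma apply_comm (D : LineCalculus H) (f g : BC) (x : H) :
    D.apply f (D.apply g x) = D.apply (f * g) x := by
  rw [map_mul]; rfl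

lemma inner_apply_left (D : LineCalculus H) (f : BC) (x y : H) :
    inner ℂ (D.apply f x) y = inner ℂ x (D.apply (star f) y) := by
  rw [map_star, ContinuousLinearMap.star_eq_adjoint, ContinuousLinearMap.adjoint_inner_right]

/-- the plateau function: one on `[-n, n]`, zero off `[-n-1, n+1]` -/
noncomputable def plateau (n : ℝ) : BC :=
  BoundedContinuousFunction.ofNormedAddCommGroup
    (fun u : ℝ => ((max 0 (min 1 (n + 1 - |u|)) : ℝ) : ℂ)) (by fun_prop) 1
    (fun u => by
      rw [Complex.norm_real, Real.norm_of_nonneg (le_max_left _ _)]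
      exact max_le zero_le_one (min_le_left _ _))

lemma plateau_apply (n u : ℝ) : plateau n u = ((max 0 (min 1 (n + 1 - |u|)) : ℝ) : ℂ) := rfl

lemma norm_plateau_le (n : ℝ) : ‖plateau n‖ ≤ 1 :=
  BoundedContinuousFunction.norm_ofNormedAddCommGroup_le _ zero_le_one _

lemma plateau_eq_one {n u : ℝ} (h : |u| ≤ n) : plateau n u = 1 := by
  rw [plateau_apply, min_eq_left (by linarith), max_eq_right zero_le_one]; simp

lemma plateau_eq_zero {n u : ℝ} (h : n + 1 ≤ |u|) : plateau n u = 0 := by
  rw [plateau_apply, max_eq_left]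
  · simp
  · exact (min_le_right _ _).trans (by linarith)

lemma hasCompactSupport_plateau (n : ℝ) : HasCompactSupport (plateau n : ℝ → ℂ) := by
  refine HasCompactSupport.intro (isCompact_Icc (a := -(n+1)) (b := n + 1)) ?_
  intro x hx
  refine plateau_eq_zero ?_
  by_contra hcon
  push Not at hcon
  apply hx
  rw [abs_lt] at hcon
  exact ⟨hcon.1.le, hcon.2.le⟩

/-- plateaus converge strongly to the identity -/
lemma exists_plateau (D : LineCalculus H) (x : H) (ε : ℝ) (hε : 0 < ε) :
    ∃ N : ℝ, ∀ n, N ≤ n → ‖D.apply (plateau n) x - x‖ < ε := by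
  obtain ⟨f, hf, hfx⟩ := D.window x (ε / 2) (by linarith)
  obtain ⟨R, hR⟩ := hf.isBounded.subset_closedBall (0 : ℝ)
  refine ⟨R, fun n hn => ?_⟩
  have h1 : plateau n * f = f := by
    ext u
    rw [BoundedContinuousFunction.mul_apply]
    by_cases hu : u ∈ tsupport (f : ℝ → ℂ)
    · have := hR hu
      rw [mem_closedBall_zero_iff, Real.norm_eq_abs] at this
      rw [plateau_eq_one (this.trans hn), one_mul]
    · rw [image_eq_zero_of_notMem_tsupport hu, mul_zero]
  have h2 : D.apply (plateau n) x - x =
      D.apply (plateau n) (x - D.apply f x) + (D.apply f x - x) := by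
    rw [map_sub, apply_comm, h1]; abel
  rw [h2]
  have h3 : ‖D.apply (plateau n) (x - D.apply f x)‖ ≤ ‖D.apply f x - x‖ := by
    refine (norm_apply_apply_le D _ _).trans ?_
    rw [norm_sub_rev]
    calc ‖plateau n‖ * ‖D.apply f x - x‖ ≤ 1 * ‖D.apply f x - x‖ :=
          mul_le_mul_of_nonneg_right (norm_plateau_le n) (norm_nonneg _)
      _ = _ := one_mul _
  refine (norm_add_le _ _).trans_lt ?_
  linarith

lemma tendsto_plateau (D : LineCalculus H) (x : H) :
    Tendsto (fun n : ℕ => D.apply (plateau n) x) atTop (𝓝 x) := by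
  rw [Metric.tendsto_atTop]
  intro ε hε
  obtain ⟨N, hN⟩ := exists_plateau D x ε hε
  obtain ⟨M, hM⟩ := exists_nat_ge N
  refine ⟨M, fun n hn => ?_⟩
  rw [dist_eq_norm]
  exact hN n (hM.trans (by exact_mod_cast hn))

/-- For `k` of compact support, `t ↦ character t * k` is Lipschitz. -/
lemma exists_lip (k : BC) (hk : HasCompactSupport (k : ℝ → ℂ)) :
    ∃ C : ℝ, 0 ≤ C ∧ ∀ t t' : ℝ,
      ‖LineCalculus.character t * k - LineCalculus.character t' * k‖ ≤ C * |t - t'| := by
  obtain ⟨R, hR⟩ := hk.isBounded.subset_closedBall (0 : ℝ)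
  refine ⟨|R| * ‖k‖, by positivity, fun t t' => ?_⟩
  refine (BoundedContinuousFunction.norm_le (by positivity)).2 fun u => ?_
  simp only [BoundedContinuousFunction.sub_apply, BoundedContinuousFunction.mul_apply]
  by_cases hu : u ∈ tsupport (k : ℝ → ℂ)
  · have hu' := hR hu
    rw [mem_closedBall_zero_iff, Real.norm_eq_abs] at hu'
    have h1 : ‖LineCalculus.character t u - LineCalculus.character t' u‖ ≤ |(t - t') * u| := by
      have h2 : LineCalculus.character t u - LineCalculus.character t' u =
          LineCalculus.character t' u *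
            (Complex.exp (Complex.I * (((t - t') * u : ℝ) : ℂ)) - 1) := by
        rw [mul_sub, mul_one, character_apply, character_apply, ← Complex.exp_add]
        congr 2
        push_cast; ring
      rw [h2, norm_mul, norm_character_apply, one_mul]
      exact Real.norm_exp_I_mul_ofReal_sub_one_le (x := (t - t') * u)
    calc ‖LineCalculus.character t u * k u - LineCalculus.character t' u * k u‖
        = ‖LineCalculus.character t u - LineCalculus.character t' u‖ * ‖k u‖ := by
          rw [← sub_mul, norm_mul]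
      _ ≤ |(t - t') * u| * ‖k‖ := by
          gcongr
          exact k.norm_coe_le_norm u
      _ = |t - t'| * |u| * ‖k‖ := by rw [abs_mul]
      _ ≤ |t - t'| * |R| * ‖k‖ := by
          refine mul_le_mul_of_nonneg_right (mul_le_mul_of_nonneg_left ?_ (abs_nonneg _))
            (norm_nonneg _)
          exact hu'.trans (le_abs_self _)
      _ = |R| * ‖k‖ * |t - t'| := by ring
  · rw [image_eq_zero_of_notMem_tsupport hu]
    simp only [mul_zero, sub_zero, norm_zero]
    positivity

lemma continuous_character_mul (k : BC) (hk : HasCompactSupport (k : ℝ → ℂ)) :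
    Continuous (fun t : ℝ => LineCalculus.character t * k) := by
  obtain ⟨C, hC, h⟩ := exists_lip k hk
  have : LipschitzWith (Real.toNNReal C) (fun t : ℝ => LineCalculus.character t * k) := by
    refine LipschitzWith.of_dist_le_mul fun t t' => ?_
    rw [dist_eq_norm, Real.dist_eq, Real.coe_toNNReal _ hC]
    exact h t t'
  exact this.continuous

/-- evaluation of the calculus at a vector, as a continuous linear map -/
noncomputable def evalAt (D : LineCalculus H) (x : H) : BC →L[ℂ] H :=
  LinearMap.mkContinuous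
    { toFun := fun f => D.apply f x
      map_add' := fun f g => by rw [map_add]; rfl
      map_smul' := fun c f => by rw [map_smul]; rfl } ‖x‖
    (fun f => by
      have := norm_apply_apply_le D f x
      simpa [mul_comm] using this)

lemma evalAt_apply (D : LineCalculus H) (x : H) (f : BC) : evalAt D x f = D.apply f x := rfl

/-- strong continuity of the unitary group -/
lemma continuous_wave (D : LineCalculus H) (x : H) : Continuous (fun t => D.wave t x) := by
  refine continuous_of_uniform_approx_of_continuous fun U hU => ?_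
  obtain ⟨ε, hε, hεU⟩ := Metric.mem_uniformity_dist.1 hU
  obtain ⟨N, hN⟩ := exists_plateau D x ε hε
  refine ⟨fun t => D.apply (LineCalculus.character t * plateau N) x, ?_, fun t => ?_⟩
  · exact (evalAt D x).continuous.comp
      (continuous_character_mul (plateau N) (hasCompactSupport_plateau N))
  · apply hεU
    rw [dist_eq_norm]
    have h1 : D.apply (LineCalculus.character t * plateau N) x =
        D.wave t (D.apply (plateau N) x) := (apply_comm D _ _ x).symm
    change ‖D.wave t x - D.apply (LineCalculus.character t * plateau N) x‖ < ε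
    rw [h1]
    rw [← map_sub, norm_wave_apply, norm_sub_rev]
    exact hN N le_rfl

lemma continuous_wave_comp (D : LineCalculus H) {X : Type*} [TopologicalSpace X]
    {τ : X → ℝ} {y : X → H} (hτ : Continuous τ) (hy : Continuous y) :
    Continuous (fun p => D.wave (τ p) (y p)) := by
  rw [continuous_iff_continuousAt]
  intro p₀
  have h1 : Tendsto (fun p => D.wave (τ p) (y p₀)) (𝓝 p₀) (𝓝 (D.wave (τ p₀) (y p₀))) :=
    ((continuous_wave D (y p₀)).comp hτ).tendsto p₀
  have h2 : Tendsto (fun p => D.wave (τ p) (y p - y p₀)) (𝓝 p₀) (𝓝 0) := by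
    rw [tendsto_zero_iff_norm_tendsto_zero]
    simp only [norm_wave_apply]
    have : Tendsto (fun p => y p - y p₀) (𝓝 p₀) (𝓝 (y p₀ - y p₀)) :=
      (hy.tendsto p₀).sub tendsto_const_nhds
    rw [sub_self] at this
    exact tendsto_zero_iff_norm_tendsto_zero.1 this
  have h3 := h2.add h1
  rw [zero_add] at h3
  refine h3.congr fun p => ?_
  rw [map_sub]; abel

/-- integrating the unitary group against an integrable function -/
lemma integral_wave (D : LineCalculus H) (ρ : ℝ → ℂ) (hρ : Integrable ρ) (g : BC)
    (hg : ∀ u, g u = ∫ t, ρ t * LineCalculus.character t u) (y : H) :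
    ∫ t, ρ t • D.wave t y = D.apply g y := by
  -- integrability
  have hint : ∀ z : H, Integrable (fun t => ρ t • D.wave t z) := by
    intro z
    refine (hρ.norm.mul_const ‖z‖).mono' (hρ.1.smul (continuous_wave D z).aestronglyMeasurable) ?_
    filter_upwards with t
    rw [norm_smul, norm_wave_apply]
  -- compactly supported cut-offs
  have hcut : ∀ n : ℕ, ∫ t, ρ t • D.wave t (D.apply (plateau n) y) =
      D.apply g (D.apply (plateau n) y) := by
    intro n
    have hcs := hasCompactSupport_plateau (n : ℝ)
    have hcont := continuous_character_mul (plateau n) hcs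
    have hI : Integrable (fun t => ρ t • (LineCalculus.character t * plateau n)) := by
      refine (hρ.norm.mul_const 1).mono' (hρ.1.smul hcont.aestronglyMeasurable) ?_
      filter_upwards with t
      rw [norm_smul]
      gcongr
      refine (BoundedContinuousFunction.norm_le zero_le_one).2 fun u => ?_
      rw [BoundedContinuousFunction.mul_apply, norm_mul, norm_character_apply, one_mul]
      exact ((plateau n).norm_coe_le_norm u).trans (norm_plateau_le _)
    have h1 : ∫ t, ρ t • (LineCalculus.character t * plateau n) = g * plateau n := by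
      ext u
      have h2 := (BoundedContinuousFunction.evalCLM ℂ u).integral_comp_comm hI
      simp only [BoundedContinuousFunction.evalCLM_apply] at h2
      rw [← h2, BoundedContinuousFunction.mul_apply, hg u, ← integral_mul_const]
      refine integral_congr_ae ?_
      filter_upwards with t
      simp [mul_assoc]
    have h3 := (evalAt D y).integral_comp_comm hI
    rw [h1] at h3
    calc ∫ t, ρ t • D.wave t (D.apply (plateau n) y)
        = ∫ t, evalAt D y (ρ t • (LineCalculus.character t * plateau n)) := by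
          refine integral_congr_ae ?_
          filter_upwards with t
          rw [map_smul, evalAt_apply, ← apply_comm]
          rfl
      _ = evalAt D y (g * plateau n) := h3
      _ = D.apply g (D.apply (plateau n) y) := (apply_comm D _ _ y).symm
  -- pass to the limit
  have hlim1 : Tendsto (fun n : ℕ => D.apply g (D.apply (plateau n) y)) atTop
      (𝓝 (D.apply g y)) := ((D.apply g).continuous.tendsto _).comp (tendsto_plateau D y)
  have hlim2 : Tendsto (fun n : ℕ => ∫ t, ρ t • D.wave t (D.apply (plateau n) y)) atTop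
      (𝓝 (∫ t, ρ t • D.wave t y)) := by
    rw [tendsto_iff_norm_sub_tendsto_zero]
    have hb : ∀ n : ℕ, ‖(∫ t, ρ t • D.wave t (D.apply (plateau n) y)) - ∫ t, ρ t • D.wave t y‖ ≤
        (∫ t, ‖ρ t‖) * ‖D.apply (plateau n) y - y‖ := by
      intro n
      rw [← integral_sub (hint _) (hint _), ← integral_mul_const]
      refine norm_integral_le_of_norm_le (hρ.norm.mul_const _) ?_
      filter_upwards with t
      rw [← smul_sub, ← map_sub, norm_smul, norm_wave_apply]
    refine squeeze_zero (fun n => norm_nonneg _) hb ?_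
    have := (tendsto_iff_norm_sub_tendsto_zero.1 (tendsto_plateau D y)).const_mul (∫ t, ‖ρ t‖)
    simpa using this
  exact tendsto_nhds_unique hlim2 (hlim1.congr fun n => (hcut n).symm)

end calculus

section bump

/-- a fixed smooth bump: one on `[-2,2]`, supported in `[-4,4]` -/
noncomputable def bump : ContDiffBump (0 : ℝ) := ⟨2, 4, by norm_num, by norm_num⟩

lemma bump_one {u : ℝ} (hu : |u| ≤ 2) : bump u = 1 := by
  apply bump.one_of_mem_closedBall
  simpa [bump, Real.norm_eq_abs] using hu

lemma bump_zero {u : ℝ} (hu : 4 ≤ |u|) : bump u = 0 := by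
  apply bump.zero_of_le_dist
  simpa [bump, Real.dist_eq] using hu

/-- the translated and rescaled bump as a bounded continuous function -/
noncomputable def bumpBC (s δ : ℝ) : BC :=
  BoundedContinuousFunction.ofNormedAddCommGroup
    (fun u : ℝ => ((bump ((u - s) / δ) : ℝ) : ℂ))
    (by
      have : Continuous (bump : ℝ → ℝ) := bump.continuous
      fun_prop) 1
    (fun u => by
      rw [Complex.norm_real, Real.norm_of_nonneg bump.nonneg]
      exact bump.le_one)

lemma bumpBC_apply (s δ u : ℝ) : bumpBC s δ u = ((bump ((u - s) / δ) : ℝ) : ℂ) := rfl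

lemma norm_bumpBC_le (s δ : ℝ) : ‖bumpBC s δ‖ ≤ 1 :=
  BoundedContinuousFunction.norm_ofNormedAddCommGroup_le _ zero_le_one _

open FourierTransform in
/-- the base kernel: an integrable function whose exponential integral is the bump -/
lemma exists_base_kernel : ∃ ρ : ℝ → ℂ, Integrable ρ ∧
    ∀ u : ℝ, ∫ t, ρ t * Complex.exp (Complex.I * ((t * u : ℝ) : ℂ)) = ((bump u : ℝ) : ℂ) := by
  have hcs : HasCompactSupport (fun u : ℝ => ((bump u : ℝ) : ℂ)) :=
    bump.hasCompactSupport.comp_left (g := fun x : ℝ => (x : ℂ)) (by simp)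
  have hcd : ContDiff ℝ (⊤ : ℕ∞) (fun u : ℝ => ((bump u : ℝ) : ℂ)) :=
    Complex.ofRealCLM.contDiff.comp bump.contDiff
  let G : SchwartzMap ℝ ℂ := hcs.toSchwartzMap hcd
  have hG : ∀ u, G u = ((bump u : ℝ) : ℂ) := fun u => rfl
  let F : SchwartzMap ℝ ℂ := 𝓕 G
  have hF : 𝓕⁻ F = G := FourierPair.fourierInv_fourier_eq G
  refine ⟨fun t => (1 / (2 * Real.pi) : ℝ) • F (t / (2 * Real.pi)), ?_, fun u => ?_⟩
  · have hne : (2 * Real.pi) ≠ 0 := by have := Real.pi_pos; positivity
    have h1 : Integrable (fun t : ℝ => F (t / (2 * Real.pi))) := F.integrable.comp_div hne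
    exact h1.smul (1 / (2 * Real.pi) : ℝ)
  · rw [← hG u, ← hF]
    have h1 : (𝓕⁻ F : SchwartzMap ℝ ℂ) u = ∫ v : ℝ, Complex.exp (2 * Real.pi * Complex.I * (v * u)) * F v := by
      have : (𝓕⁻ F : SchwartzMap ℝ ℂ) u = 𝓕⁻ (F : ℝ → ℂ) u := by
        rw [← SchwartzMap.fourierInv_coe]
      rw [this, Real.fourierInv_eq']
      refine integral_congr_ae ?_
      filter_upwards with v
      simp only [smul_eq_mul, RCLike.inner_apply, conj_trivial]
      congr 2
      push_cast
      ring
    rw [h1]
    have h2 := MeasureTheory.Measure.integral_comp_mul_left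
      (fun v : ℝ => Complex.exp (2 * Real.pi * Complex.I * (v * u)) * F v) (1 / (2 * Real.pi))
    have h3 : |(1 / (2 * Real.pi))⁻¹| = 2 * Real.pi := by
      rw [one_div, inv_inv, abs_of_pos (by positivity)]
    rw [h3] at h2
    have h4 : (∫ v : ℝ, Complex.exp (2 * Real.pi * Complex.I * (v * u)) * F v) =
        (1 / (2 * Real.pi) : ℝ) • ∫ x : ℝ, (fun v : ℝ => Complex.exp (2 * Real.pi * Complex.I * (v * u)) * F v)
          (1 / (2 * Real.pi) * x) := by
      rw [h2, smul_smul]
      have : (1 / (2 * Real.pi)) * (2 * Real.pi) = (1 : ℝ) := by field_simp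
      rw [this, one_smul]
    rw [h4, ← integral_smul]
    refine integral_congr_ae ?_
    filter_upwards with t
    have h5 : Complex.exp (2 * Real.pi * Complex.I * (((1 / (2 * Real.pi) * t : ℝ) : ℂ) * u)) =
        Complex.exp (Complex.I * ((t * u : ℝ) : ℂ)) := by
      congr 1
      push_cast
      have : (Real.pi : ℂ) ≠ 0 := by exact_mod_cast Real.pi_ne_zero
      field_simp
    have h6 : 1 / (2 * Real.pi) * t = t / (2 * Real.pi) := by ring
    simp only [Complex.real_smul]
    rw [h5, h6]
    ring

/-- the chosen base kernel -/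
noncomputable def rho0 : ℝ → ℂ := exists_base_kernel.choose

lemma integrable_rho0 : Integrable rho0 := exists_base_kernel.choose_spec.1

lemma integral_rho0 (u : ℝ) :
    ∫ t, rho0 t * Complex.exp (Complex.I * ((t * u : ℝ) : ℂ)) = ((bump u : ℝ) : ℂ) :=
  exists_base_kernel.choose_spec.2 u

/-- total variation of the base kernel -/
noncomputable def rhoC : ℝ := ∫ t, ‖rho0 t‖

lemma rhoC_nonneg : 0 ≤ rhoC := integral_nonneg fun _ => norm_nonneg _

/-- the rescaled kernel -/
noncomputable def rho (s δ : ℝ) (t : ℝ) : ℂ :=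
  (δ : ℂ) * Complex.exp (Complex.I * ((-(s * t) : ℝ) : ℂ)) * rho0 (δ * t)

lemma norm_rho (s : ℝ) {δ : ℝ} (hδ : 0 < δ) (t : ℝ) : ‖rho s δ t‖ = δ * ‖rho0 (δ * t)‖ := by
  rw [rho, norm_mul, norm_mul, Complex.norm_exp]
  simp [abs_of_pos hδ]

lemma integrable_rho (s : ℝ) {δ : ℝ} (hδ : 0 < δ) : Integrable (rho s δ) := by
  have h1 : Integrable (fun t => rho0 (δ * t)) := integrable_rho0.comp_mul_left' hδ.ne'
  have h2 : Integrable (fun t => (δ : ℂ) * rho0 (δ * t)) := h1.const_mul _
  refine h2.norm.mono' ?_ ?_
  · have hc : Continuous (fun t : ℝ => (δ : ℂ) * Complex.exp (Complex.I * ((-(s * t) : ℝ) : ℂ))) := by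
      fun_prop
    exact hc.aestronglyMeasurable.mul h1.1
  · filter_upwards with t
    rw [norm_rho s hδ, norm_mul]
    simp [abs_of_pos hδ]

lemma integral_norm_rho (s : ℝ) {δ : ℝ} (hδ : 0 < δ) : ∫ t, ‖rho s δ t‖ = rhoC := by
  simp_rw [norm_rho s hδ]
  rw [integral_const_mul, MeasureTheory.Measure.integral_comp_mul_left (fun t => ‖rho0 t‖) δ,
    abs_of_pos (inv_pos.2 hδ), smul_eq_mul, rhoC, ← mul_assoc, mul_inv_cancel₀ hδ.ne', one_mul]

lemma integral_rho (s : ℝ) {δ : ℝ} (hδ : 0 < δ) (u : ℝ) :
    bumpBC s δ u = ∫ t, rho s δ t * LineCalculus.character t u := by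
  rw [bumpBC_apply, ← integral_rho0]
  have h := MeasureTheory.Measure.integral_comp_mul_left
    (fun τ : ℝ => rho0 τ * Complex.exp (Complex.I * ((τ * ((u - s) / δ) : ℝ) : ℂ))) δ
  rw [abs_of_pos (inv_pos.2 hδ)] at h
  have h' : (∫ τ : ℝ, rho0 τ * Complex.exp (Complex.I * ((τ * ((u - s) / δ) : ℝ) : ℂ))) =
      δ • ∫ x : ℝ, (fun τ : ℝ => rho0 τ * Complex.exp (Complex.I * ((τ * ((u - s) / δ) : ℝ) : ℂ)))
        (δ * x) := by
    rw [h, smul_smul, mul_inv_cancel₀ hδ.ne', one_smul]
  rw [h', ← integral_smul]
  refine integral_congr_ae ?_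
  filter_upwards with t
  rw [character_apply, rho]
  have h5 : Complex.exp (Complex.I * ((δ * t * ((u - s) / δ) : ℝ) : ℂ)) =
      Complex.exp (Complex.I * ((-(s * t) : ℝ) : ℂ)) * Complex.exp (Complex.I * ((t * u : ℝ) : ℂ)) := by
    rw [← Complex.exp_add]
    congr 1
    have : δ * t * ((u - s) / δ) = t * u - s * t := by field_simp
    rw [this]; push_cast; ring
  simp only [Complex.real_smul]
  rw [h5]
  ring

end bump

end Crest.Agent.H3.BR
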