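import Crest.Agent.H3.BRMod

/-! Bounded-recovery helper: ultrafilter means over windows. -/

set_option autoImplicit false

namespace Crest.Agent.H3.BR

open MeasureTheory Filter Topology Crest.OpAlg
open scoped BoundedContinuousFunction InnerProductSpace

section mean

variable {E : Type*} [NormedAddCommGroup E] [NormedSpace ℝ E]

/-- the window averages of `f` converge to `m` along `ω` -/
def HasMean (ω : Ultrafilter ℕ) (f : ℝ → E) (m : E) : Prop :=
  Tendsto (fun k : ℕ => ⨍ t in Set.Icc (-(k : ℝ)) (k : ℝ), f t) (ω : Filter ℕ) (𝓝 m)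

lemma ultraMean_eq {ω : Ultrafilter ℕ} {f : ℝ → ℝ} {m : ℝ} (h : HasMean ω f m) :
    ultraMean ω f = m := h.limUnder_eq

lemma avg_eq (f : ℝ → E) (k : ℕ) :
    (⨍ t in Set.Icc (-(k : ℝ)) (k : ℝ), f t) = (2 * (k : ℝ))⁻¹ • ∫ t in (-(k : ℝ))..k, f t := by
  rw [MeasureTheory.setAverage_eq, intervalIntegral.integral_of_le (by linarith [Nat.cast_nonneg (α := ℝ) k]),
    MeasureTheory.integral_Icc_eq_integral_Ioc]
  congr 2
  rw [Measure.real, Real.volume_Icc, ENNReal.toReal_ofReal (by linarith [Nat.cast_nonneg (α := ℝ) k])]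
  ring

lemma norm_avg_le {f : ℝ → E} {C : ℝ} (hC : ∀ t, ‖f t‖ ≤ C) (k : ℕ) :
    ‖⨍ t in Set.Icc (-(k : ℝ)) (k : ℝ), f t‖ ≤ C := by
  have hC0 : 0 ≤ C := (norm_nonneg _).trans (hC 0)
  rw [avg_eq, norm_smul]
  have h1 : ‖∫ t in (-(k : ℝ))..k, f t‖ ≤ C * |(k : ℝ) - -(k : ℝ)| :=
    intervalIntegral.norm_integral_le_of_norm_le_const fun t _ => hC t
  have h2 : |(k : ℝ) - -(k : ℝ)| = 2 * k := by
    rw [abs_of_nonneg] <;> [ring; linarith [Nat.cast_nonneg (α := ℝ) k]]
  rw [h2] at h1
  rcases Nat.eq_zero_or_pos k with h0 | h0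
  · subst h0; simp [hC0]
  · have hk : (0 : ℝ) < 2 * k := by positivity
    rw [norm_inv, Real.norm_of_nonneg hk.le, inv_mul_le_iff₀ hk]
    linarith

lemma exists_hasMean [ProperSpace E] (ω : Ultrafilter ℕ) {f : ℝ → E} {C : ℝ} (hC : ∀ t, ‖f t‖ ≤ C) :
    ∃ m, HasMean ω f m := by
  have hcomp : IsCompact (Metric.closedBall (0 : E) C) := isCompact_closedBall _ _
  let g : ℕ → E := fun k => ⨍ t in Set.Icc (-(k : ℝ)) (k : ℝ), f t
  have hg : ∀ k, g k ∈ Metric.closedBall (0 : E) C := fun k => by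
    rw [mem_closedBall_zero_iff]; exact norm_avg_le hC k
  have hle : ((ω.map g : Ultrafilter E) : Filter E) ≤ 𝓟 (Metric.closedBall (0 : E) C) := by
    rw [Filter.le_principal_iff]
    exact Filter.mem_map.2 (Filter.univ_mem' hg)
  obtain ⟨m, _, hm⟩ := hcomp.ultrafilter_le_nhds _ hle
  exact ⟨m, hm⟩

lemma HasMean.add {ω : Ultrafilter ℕ} {f g : ℝ → E} {m n : E} (hf : HasMean ω f m)
    (hg : HasMean ω g n) (hfc : Continuous f) (hgc : Continuous g) :
    HasMean ω (fun t => f t + g t) (m + n) := by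
  refine (Tendsto.add hf hg).congr fun k => ?_
  rw [avg_eq, avg_eq, avg_eq, ← smul_add,
    intervalIntegral.integral_add (hfc.intervalIntegrable _ _) (hgc.intervalIntegrable _ _)]

lemma HasMean.const_smul {ω : Ultrafilter ℕ} {f : ℝ → E} {m : E} (hf : HasMean ω f m) (c : ℝ) :
    HasMean ω (fun t => c • f t) (c • m) := by
  refine (Tendsto.const_smul hf c).congr fun k => ?_
  rw [avg_eq, avg_eq, intervalIntegral.integral_smul, smul_comm]

lemma hasMean_const (ω : Ultrafilter ℕ) (hω : (ω : Filter ℕ) ≤ atTop) (c : E) [CompleteSpace E] :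
    HasMean ω (fun _ => c) c := by
  refine (tendsto_const_nhds (x := c)).congr' ?_
  have h1 : ∀ᶠ k : ℕ in (ω : Filter ℕ), 1 ≤ k := hω (eventually_ge_atTop 1)
  filter_upwards [h1] with k hk
  rw [avg_eq, intervalIntegral.integral_const, smul_smul]
  have hk' : (0 : ℝ) < k := by exact_mod_cast hk
  have : (2 * (k : ℝ))⁻¹ * ((k : ℝ) - -(k : ℝ)) = 1 := by field_simp; ring
  rw [this, one_smul]

lemma HasMean.clm {F : Type*} [NormedAddCommGroup F] [NormedSpace ℝ F] [CompleteSpace E]
    [CompleteSpace F] {ω : Ultrafilter ℕ} {f : ℝ → E} {m : E}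
    (hf : HasMean ω f m) (hfc : Continuous f) (L : E →L[ℝ] F) :
    HasMean ω (fun t => L (f t)) (L m) := by
  refine ((L.continuous.tendsto m).comp hf).congr fun k => ?_
  simp only [Function.comp]
  rw [avg_eq, avg_eq, map_smul, L.intervalIntegral_comp_comm (hfc.intervalIntegrable _ _)]

lemma HasMean.neg_arg {ω : Ultrafilter ℕ} {f : ℝ → E} {m : E} (hf : HasMean ω f m) :
    HasMean ω (fun t => f (-t)) m := by
  refine Tendsto.congr (fun k => ?_) hf
  rw [avg_eq, avg_eq, intervalIntegral.integral_comp_neg, neg_neg]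

lemma HasMean.translate {ω : Ultrafilter ℕ} (hω : (ω : Filter ℕ) ≤ atTop) {f : ℝ → E} {m : E}
    (hf : HasMean ω f m) (hfc : Continuous f) {C : ℝ} (hC : ∀ t, ‖f t‖ ≤ C) (a : ℝ) :
    HasMean ω (fun t => f (t + a)) m := by
  have hC0 : 0 ≤ C := (norm_nonneg _).trans (hC 0)
  have hdiff : Tendsto (fun k : ℕ => (⨍ t in Set.Icc (-(k : ℝ)) (k : ℝ), f (t + a)) -
      ⨍ t in Set.Icc (-(k : ℝ)) (k : ℝ), f t) (ω : Filter ℕ) (𝓝 0) := by
    refine Tendsto.mono_left ?_ hω
    rw [tendsto_zero_iff_norm_tendsto_zero]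
    refine squeeze_zero (g := fun k : ℕ => (C * |a|) / (k : ℝ)) (fun k => norm_nonneg _)
      (fun k => ?_) ?_
    · rw [avg_eq, avg_eq, ← smul_sub, intervalIntegral.integral_comp_add_right, norm_smul]
      have h1 : (∫ t in (-(k : ℝ) + a)..(k + a), f t) - ∫ t in (-(k : ℝ))..k, f t =
          (∫ t in (k : ℝ)..(k + a), f t) - ∫ t in (-(k : ℝ))..(-(k : ℝ) + a), f t := by
        have e1 := intervalIntegral.integral_add_adjacent_intervals
          (hfc.intervalIntegrable (μ := volume) (-(k : ℝ)) (-(k : ℝ) + a))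
          (hfc.intervalIntegrable (μ := volume) (-(k : ℝ) + a) (k + a))
        have e2 := intervalIntegral.integral_add_adjacent_intervals
          (hfc.intervalIntegrable (μ := volume) (-(k : ℝ)) k)
          (hfc.intervalIntegrable (μ := volume) (k : ℝ) (k + a))
        rw [sub_eq_sub_iff_add_eq_add, add_comm _ (∫ t in (-(k : ℝ))..(-(k : ℝ) + a), f t), e1, ← e2,
          add_comm]
      rw [h1]
      have h2 : ‖∫ t in (k : ℝ)..(k + a), f t‖ ≤ C * |(k : ℝ) + a - k| :=
        intervalIntegral.norm_integral_le_of_norm_le_const fun t _ => hC t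
      have h3 : ‖∫ t in (-(k : ℝ))..(-(k : ℝ) + a), f t‖ ≤ C * |-(k : ℝ) + a - -(k : ℝ)| :=
        intervalIntegral.norm_integral_le_of_norm_le_const fun t _ => hC t
      rw [show (k : ℝ) + a - k = a by ring] at h2
      rw [show -(k : ℝ) + a - -(k : ℝ) = a by ring] at h3
      have h4 := (norm_sub_le (∫ t in (k : ℝ)..(k + a), f t) (∫ t in (-(k : ℝ))..(-(k : ℝ) + a), f t))
      rcases Nat.eq_zero_or_pos k with h0 | h0
      · subst h0; simp
      · have hk : (0 : ℝ) < k := by exact_mod_cast h0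
        rw [norm_inv, Real.norm_of_nonneg (by positivity), inv_mul_le_iff₀ (by positivity)]
        have : 2 * (k : ℝ) * (C * |a| / k) = 2 * (C * |a|) := by field_simp
        rw [this]
        linarith
    · exact tendsto_const_div_atTop_nhds_zero_nat _
  have := hdiff.add hf
  rw [zero_add] at this
  refine this.congr fun k => ?_
  simp

lemma HasMean.exists_gt {ω : Ultrafilter ℕ} (hω : (ω : Filter ℕ) ≤ atTop) {f : ℝ → ℝ} {m : ℝ}
    (hf : HasMean ω f m) (hfc : Continuous f) {η : ℝ} (hη : 0 < η) :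
    ∃ t, m - η < f t := by
  by_contra hcon
  push Not at hcon
  have h1 : ∀ᶠ k : ℕ in (ω : Filter ℕ), 1 ≤ k := hω (eventually_ge_atTop 1)
  have h2 : m ≤ m - η := by
    refine le_of_tendsto hf ?_
    filter_upwards [h1] with k hk
    have hk' : (0 : ℝ) < k := by exact_mod_cast hk
    rw [avg_eq, smul_eq_mul, inv_mul_le_iff₀ (by positivity)]
    have h3 : ∫ t in (-(k : ℝ))..k, f t ≤ ∫ t in (-(k : ℝ))..k, (m - η) :=
      intervalIntegral.integral_mono_on (by linarith) (hfc.intervalIntegrable _ _)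
        intervalIntegrable_const fun t _ => hcon t
    rw [intervalIntegral.integral_const, smul_eq_mul] at h3
    linarith
  linarith

lemma HasMean.mono {ω : Ultrafilter ℕ} {f g : ℝ → ℝ} {m n : ℝ}
    (hf : HasMean ω f m) (hg : HasMean ω g n) (hfc : Continuous f) (hgc : Continuous g)
    (hle : ∀ t, f t ≤ g t) : m ≤ n := by
  refine le_of_tendsto_of_tendsto hf hg (Eventually.of_forall fun k => ?_)
  simp only
  rw [avg_eq, avg_eq, smul_eq_mul, smul_eq_mul]
  refine mul_le_mul_of_nonneg_left ?_ (by positivity)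
  exact intervalIntegral.integral_mono_on (by linarith [Nat.cast_nonneg (α := ℝ) k])
    (hfc.intervalIntegrable _ _) (hgc.intervalIntegrable _ _) fun t _ => hle t

end mean

section ergodic

variable {H : Type*} [NormedAddCommGroup H] [InnerProductSpace ℂ H] [CompleteSpace H]
variable (S : ModularDatum H)

lemma flow_apply (t : ℝ) (x : H →L[ℂ] H) (y : H) :
    S.flow t x y = S.D.wave t (x (S.D.wave (-t) y)) := rfl

lemma flow_mem {x : H →L[ℂ] H} (hx : x ∈ S.M) (t : ℝ) : S.flow t x ∈ S.M := S.flow_mem t x hx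

lemma flow_vac (t : ℝ) (x : H →L[ℂ] H) : S.flow t x S.vac = S.D.wave t (x S.vac) := by
  rw [flow_apply, wave_vac]

lemma norm_flow_apply_le (t : ℝ) (x : H →L[ℂ] H) (y : H) : ‖S.flow t x y‖ ≤ ‖x‖ * ‖y‖ := by
  rw [flow_apply, norm_wave_apply]
  refine (x.le_opNorm _).trans ?_
  rw [norm_wave_apply]

lemma continuous_flow (x : H →L[ℂ] H) (y : H) : Continuous fun t => S.flow t x y := by
  simp only [flow_apply]
  refine continuous_wave_comp S.D continuous_id ?_
  exact x.continuous.comp ((continuous_wave S.D y).comp continuous_neg)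

lemma star_flow (t : ℝ) (x : H →L[ℂ] H) : star (S.flow t x) = S.flow t (star x) := by
  unfold ModularDatum.flow
  rw [star_mul, star_mul, star_wave, star_wave, neg_neg, mul_assoc]

lemma flow_mul (t : ℝ) (x y : H →L[ℂ] H) : S.flow t x * S.flow t y = S.flow t (x * y) := by
  unfold ModularDatum.flow
  calc S.D.wave t * x * S.D.wave (-t) * (S.D.wave t * y * S.D.wave (-t))
      = S.D.wave t * x * (S.D.wave (-t) * S.D.wave t) * y * S.D.wave (-t) := by
        simp only [mul_assoc]
    _ = _ := by rw [wave_neg_mul, mul_one]; simp only [mul_assoc]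

lemma flow_add (s t : ℝ) (x : H →L[ℂ] H) : S.flow s (S.flow t x) = S.flow (s + t) x := by
  unfold ModularDatum.flow
  rw [wave_add, show -(s + t) = -t + -s by ring, wave_add]
  simp only [mul_assoc]

lemma norm_inner_flow_le (t : ℝ) (x : H →L[ℂ] H) (v w : H) :
    ‖(inner ℂ v (S.flow t x w) : ℂ)‖ ≤ ‖x‖ * ‖v‖ * ‖w‖ := by
  refine (norm_inner_le_norm _ _).trans ?_
  calc ‖v‖ * ‖S.flow t x w‖ ≤ ‖v‖ * (‖x‖ * ‖w‖) :=
        mul_le_mul_of_nonneg_left (norm_flow_apply_le S t x w) (norm_nonneg _)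
    _ = _ := by ring

lemma continuous_inner_flow (x : H →L[ℂ] H) (v w : H) :
    Continuous fun t => (inner ℂ v (S.flow t x w) : ℂ) :=
  continuous_const.inner (continuous_flow S x w)

/-- the sesquilinear mean form -/
lemma exists_form (ω : Ultrafilter ℕ) (x : H →L[ℂ] H) :
    ∃ E : H →L[ℂ] H, ∀ v w : H, HasMean ω (fun t => (inner ℂ v (S.flow t x w) : ℂ)) (inner ℂ v (E w)) := by
  have hex : ∀ v w : H, ∃ m : ℂ, HasMean ω (fun t => (inner ℂ v (S.flow t x w) : ℂ)) m :=
    fun v w => exists_hasMean ω fun t => norm_inner_flow_le S t x v w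
  choose m hm using hex
  have huniq : ∀ {f : ℝ → ℂ} {a b : ℂ}, HasMean ω f a → HasMean ω f b → a = b :=
    fun h1 h2 => tendsto_nhds_unique h1 h2
  have hsm : ∀ (c : ℂ) {f : ℝ → ℂ} {a : ℂ}, HasMean ω f a → Continuous f →
      HasMean ω (fun t => c * f t) (c * a) := by
    intro c f a h hc
    exact h.clm hc ((ContinuousLinearMap.mul ℂ ℂ c).restrictScalars ℝ)
  let B₀ : H →ₗ⋆[ℂ] H →ₗ[ℂ] ℂ := LinearMap.mk₂'ₛₗ (starRingEnd ℂ) (RingHom.id ℂ) m
    (fun v v' w => by
      refine huniq (hm (v + v') w) ?_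
      refine ((hm v w).add (hm v' w) (continuous_inner_flow S x v w)
        (continuous_inner_flow S x v' w)).congr fun k => ?_
      simp only [inner_add_left])
    (fun c v w => by
      refine huniq (hm (c • v) w) ?_
      refine (hsm ((starRingEnd ℂ) c) (hm v w) (continuous_inner_flow S x v w)).congr fun k => ?_
      simp only [inner_smul_left])
    (fun v w w' => by
      refine huniq (hm v (w + w')) ?_
      refine ((hm v w).add (hm v w') (continuous_inner_flow S x v w)
        (continuous_inner_flow S x v w')).congr fun k => ?_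
      simp only [map_add, inner_add_right])
    (fun c v w => by
      refine huniq (hm v (c • w)) ?_
      refine (hsm c (hm v w) (continuous_inner_flow S x v w)).congr fun k => ?_
      simp only [map_smul, inner_smul_right])
  have hb : ∀ v w, ‖B₀ v w‖ ≤ ‖x‖ * ‖v‖ * ‖w‖ := by
    intro v w
    refine le_of_tendsto (hm v w).norm (Eventually.of_forall fun k => ?_)
    exact norm_avg_le (fun t => norm_inner_flow_le S t x v w) k
  let B : H →L⋆[ℂ] H →L[ℂ] ℂ := B₀.mkContinuous₂ ‖x‖ hb
  refine ⟨ContinuousLinearMap.adjoint (InnerProductSpace.continuousLinearMapOfBilin B), fun v w => ?_⟩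
  rw [ContinuousLinearMap.adjoint_inner_right, InnerProductSpace.continuousLinearMapOfBilin_apply]
  exact hm v w

/-- ergodicity: the means of the flow are scalar -/
lemma hasMean_flow (herg : S.Ergodic) (ω : Ultrafilter ℕ) (hω : (ω : Filter ℕ) ≤ atTop)
    {x : H →L[ℂ] H} (hx : x ∈ S.M) (v w : H) :
    HasMean ω (fun t => (inner ℂ v (S.flow t x w) : ℂ))
      (inner ℂ S.vac (x S.vac) * inner ℂ v w) := by
  obtain ⟨E, hE⟩ := exists_form S ω x
  have hEM : E ∈ S.M := by
    rw [← S.M.commutant_commutant, VonNeumannAlgebra.mem_commutant_iff]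
    intro z hz
    refine ContinuousLinearMap.ext fun w' => ext_inner_left ℂ fun v' => ?_
    have h1 := hE v' (z w')
    have h2 := hE (ContinuousLinearMap.adjoint z v') w'
    have h3 : ∀ t, inner ℂ (ContinuousLinearMap.adjoint z v') (S.flow t x w') =
        inner ℂ v' (S.flow t x (z w')) := by
      intro t
      rw [ContinuousLinearMap.adjoint_inner_left]
      have hc := (VonNeumannAlgebra.mem_commutant_iff.1 hz) _ (flow_mem S hx t)
      have : z (S.flow t x w') = S.flow t x (z w') := by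
        have := congrArg (fun L : H →L[ℂ] H => L w') hc
        exact this.symm
      rw [this]
    have h4 : inner ℂ v' (E (z w')) = inner ℂ (ContinuousLinearMap.adjoint z v') (E w') := by
      refine tendsto_nhds_unique h1 (Tendsto.congr (fun k => ?_) h2)
      simp only [h3]
    change inner ℂ v' (z (E w')) = inner ℂ v' (E (z w'))
    rw [h4, ContinuousLinearMap.adjoint_inner_left]
  have hinv : ∀ s : ℝ, S.flow s E = E := by
    intro s
    refine ContinuousLinearMap.ext fun w' => ext_inner_left ℂ fun v' => ?_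
    rw [flow_apply]
    have h1 := hE (S.D.wave (-s) v') (S.D.wave (-s) w')
    have h2 := (hE v' w').translate hω (continuous_inner_flow S x v' w')
      (fun t => norm_inner_flow_le S t x v' w') s
    have h3 : ∀ t, inner ℂ (S.D.wave (-s) v') (S.flow t x (S.D.wave (-s) w')) =
        inner ℂ v' (S.flow (t + s) x w') := by
      intro t
      rw [inner_wave_left, neg_neg, flow_apply, flow_apply]
      have e1 : S.D.wave s (S.D.wave t (x (S.D.wave (-t) (S.D.wave (-s) w')))) =
          S.D.wave (t + s) (x (S.D.wave (-(t + s)) w')) := by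
        rw [show t + s = s + t by ring, wave_add, show -(s + t) = -t + -s by ring, wave_add]
        rfl
      rw [e1]
    have h4 : inner ℂ (S.D.wave (-s) v') (E (S.D.wave (-s) w')) = inner ℂ v' (E w') := by
      refine tendsto_nhds_unique h1 (Tendsto.congr (fun k => ?_) h2)
      simp only [h3]
    rw [← h4, inner_wave_left, neg_neg]
  obtain ⟨c, hc⟩ := herg E hEM hinv
  have hcval : c = inner ℂ S.vac (x S.vac) := by
    have h1 := hE S.vac S.vac
    have h2 : HasMean ω (fun t => (inner ℂ S.vac (S.flow t x S.vac) : ℂ))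
        (inner ℂ S.vac (x S.vac)) := by
      have key : ∀ t, (inner ℂ S.vac (S.flow t x S.vac) : ℂ) = inner ℂ S.vac (x S.vac) := by
        intro t
        rw [flow_vac, ← neg_neg t, ← inner_wave_left, wave_vac]
      simp only [key]
      exact hasMean_const ω hω _
    have h3 := tendsto_nhds_unique h1 h2
    rw [← h3, hc]
    change c = inner ℂ S.vac (c • S.vac)
    rw [inner_smul_right, inner_self_eq_norm_sq_to_K, S.norm_vac]
    simp
  have h5 := hE v w
  rw [hc, hcval] at h5
  change HasMean ω _ (inner ℂ v ((inner ℂ S.vac (x S.vac) : ℂ) • w)) at h5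
  rwa [inner_smul_right] at h5

end ergodic

end Crest.Agent.H3.BR
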