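import Crest.Agent.H3.BRCalc

/-! Bounded-recovery helper: modular data. -/

set_option autoImplicit false

namespace Crest.Agent.H3.BR

open MeasureTheory Filter Topology Crest.OpAlg
open scoped BoundedContinuousFunction InnerProductSpace

variable {H : Type*} [NormedAddCommGroup H] [InnerProductSpace ℂ H] [CompleteSpace H]

lemma supported_apply {D : LineCalculus H} {K : Set ℝ} {x : H} (hx : D.SupportedIn K x) (f : BC) :
    D.SupportedIn K (D.apply f x) := by
  intro g hg
  rw [apply_comm]
  refine hx _ fun u hu => ?_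
  rw [BoundedContinuousFunction.mul_apply, hg u hu, zero_mul]

lemma supported_wave {D : LineCalculus H} {K : Set ℝ} {x : H} (hx : D.SupportedIn K x) (t : ℝ) :
    D.SupportedIn K (D.wave t x) := supported_apply hx _

lemma supported_zero (D : LineCalculus H) (K : Set ℝ) : D.SupportedIn K (0 : H) := by
  intro f _
  exact map_zero _

lemma supported_add {D : LineCalculus H} {K : Set ℝ} {x y : H} (hx : D.SupportedIn K x)
    (hy : D.SupportedIn K y) : D.SupportedIn K (x + y) := by
  intro f hf
  rw [map_add, hx f hf, hy f hf, add_zero]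

lemma supported_smul {D : LineCalculus H} {K : Set ℝ} {x : H} (hx : D.SupportedIn K x) (c : ℂ) :
    D.SupportedIn K (c • x) := by
  intro f hf
  rw [map_smul, hx f hf, smul_zero]

lemma apply_eq_of_eqOn {D : LineCalculus H} {K : Set ℝ} {x : H} (hx : D.SupportedIn K x)
    (f g : BC) (hfg : ∀ u ∈ K, f u = g u) : D.apply f x = D.apply g x := by
  rw [← sub_eq_zero]
  have h1 : D.apply f x - D.apply g x = D.apply (f - g) x := by rw [map_sub]; rfl
  rw [h1]
  exact hx _ fun u hu => by rw [BoundedContinuousFunction.sub_apply, hfg u hu, sub_self]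

lemma supported_bump (D : LineCalculus H) (s : ℝ) {δ : ℝ} (hδ : 0 < δ) (y : H) :
    D.SupportedIn (Set.Icc (s - 4 * δ) (s + 4 * δ)) (D.apply (bumpBC s δ) y) := by
  intro f hf
  rw [apply_comm]
  have : f * bumpBC s δ = 0 := by
    ext u
    rw [BoundedContinuousFunction.mul_apply, bumpBC_apply]
    by_cases hu : u ∈ Set.Icc (s - 4 * δ) (s + 4 * δ)
    · rw [hf u hu, zero_mul]; rfl
    · rw [bump_zero]
      · simp
      · rw [abs_div, abs_of_pos hδ, le_div_iff₀ hδ]
        by_contra hcon
        push Not at hcon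
        rw [abs_lt] at hcon
        exact hu ⟨by linarith, by linarith⟩
  rw [this, map_zero]; rfl

lemma bump_fix {D : LineCalculus H} {s δ : ℝ} (hδ : 0 < δ) {x : H}
    (hx : D.SupportedIn (Set.Icc (s - 2 * δ) (s + 2 * δ)) x) :
    D.apply (bumpBC s δ) x = x := by
  have h1 : D.apply (bumpBC s δ) x = D.apply 1 x := by
    refine apply_eq_of_eqOn hx _ _ fun u hu => ?_
    rw [bumpBC_apply, bump_one]
    · simp
    · rw [abs_div, abs_of_pos hδ, div_le_iff₀ hδ, abs_le]
      exact ⟨by linarith [hu.1], by linarith [hu.2]⟩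
  rw [h1, map_one]; rfl

/-- plateau times `exp (min u b / 2)` -/
noncomputable def plateauExp (n b : ℝ) : BC :=
  BoundedContinuousFunction.ofNormedAddCommGroup
    (fun u : ℝ => ((max 0 (min 1 (n + 1 - |u|)) * Real.exp (min u b / 2) : ℝ) : ℂ))
    (by fun_prop) (Real.exp (b / 2))
    (fun u => by
      rw [Complex.norm_real, Real.norm_of_nonneg (by positivity)]
      calc max 0 (min 1 (n + 1 - |u|)) * Real.exp (min u b / 2)
          ≤ 1 * Real.exp (b / 2) := by
            refine mul_le_mul ?_ ?_ (Real.exp_pos _).le zero_le_one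
            · exact max_le zero_le_one (min_le_left _ _)
            · exact Real.exp_le_exp.2 (by linarith [min_le_right u b])
        _ = _ := one_mul _)

lemma plateauExp_apply (n b u : ℝ) : plateauExp n b u =
    ((max 0 (min 1 (n + 1 - |u|)) * Real.exp (min u b / 2) : ℝ) : ℂ) := rfl

lemma norm_plateauExp_le (n b : ℝ) : ‖plateauExp n b‖ ≤ Real.exp (b / 2) :=
  BoundedContinuousFunction.norm_ofNormedAddCommGroup_le _ (Real.exp_pos _).le _

lemma plateauExp_eq {n b : ℝ} (hb : n + 1 ≤ b) (u : ℝ) :
    plateauExp n b u = plateau n u * ((Real.exp (u / 2) : ℝ) : ℂ) := by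
  rw [plateauExp_apply, plateau_apply, ← Complex.ofReal_mul]
  congr 1
  rcases le_or_gt u b with h | h
  · rw [min_eq_left h]
  · have : max 0 (min 1 (n + 1 - |u|)) = 0 := by
      apply max_eq_left
      refine (min_le_right _ _).trans ?_
      have := le_abs_self u
      linarith
    rw [this]; ring

/-- if `y = exp(D/2) x` and `x` is supported in `(-∞, b]` then `‖y‖ ≤ exp(b/2) ‖x‖` -/
lemma norm_le_of_halfExp {D : LineCalculus H} {a b : ℝ} {x y : H}
    (hx : D.SupportedIn (Set.Icc a b) x) (hxy : D.HalfExp x y) :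
    ‖y‖ ≤ Real.exp (b / 2) * ‖x‖ := by
  have hb : ∀ n : ℕ, ‖D.apply (plateau n) y‖ ≤ Real.exp (b / 2) * ‖x‖ := by
    intro n
    have h1 : D.apply (plateau n) y = D.apply (plateauExp n (n + 1)) x :=
      hxy _ _ fun u => plateauExp_eq le_rfl u
    have h2 : D.apply (plateauExp n (n + 1)) x = D.apply (plateauExp n b) x := by
      refine apply_eq_of_eqOn hx _ _ fun u hu => ?_
      rw [plateauExp_eq le_rfl, plateauExp_apply, min_eq_left hu.2, plateau_apply,
        Complex.ofReal_mul]
    rw [h1, h2]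
    exact (norm_apply_apply_le D _ _).trans
      (mul_le_mul_of_nonneg_right (norm_plateauExp_le _ _) (norm_nonneg _))
  exact le_of_tendsto (tendsto_plateau D y).norm (Eventually.of_forall hb)

section modular

variable (S : ModularDatum H)

lemma vac_mem : (1 : H →L[ℂ] H) ∈ S.M := one_mem S.M

lemma tomita_mem {a : H →L[ℂ] H} (ha : a ∈ S.M) :
    S.D.HalfExp (a S.vac) (S.J (star a S.vac)) := by
  have h1 : ((a S.vac, star a S.vac) : H × H) ∈
      closure (Set.range fun a : S.M => ((a : H →L[ℂ] H) S.vac, star (a : H →L[ℂ] H) S.vac)) :=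
    subset_closure ⟨⟨a, ha⟩, rfl⟩
  rw [S.tomita] at h1
  exact h1

lemma norm_star_vac_le {a : H →L[ℂ] H} (ha : a ∈ S.M) {l b : ℝ}
    (hsupp : S.D.SupportedIn (Set.Icc l b) (a S.vac)) :
    ‖star a S.vac‖ ≤ Real.exp (b / 2) * ‖a S.vac‖ := by
  have h := norm_le_of_halfExp hsupp (tomita_mem S ha)
  rwa [LinearIsometryEquiv.norm_map] at h

/-- the adjoint relation for the closed Tomita operator -/
lemma inner_of_halfExp {x z : H} (h : S.D.HalfExp x (S.J z)) :
    inner ℂ z S.vac = inner ℂ S.vac x := by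
  have hmem : ((x, z) : H × H) ∈ {p : H × H | S.D.HalfExp p.1 (S.J p.2)} := h
  rw [← S.tomita] at hmem
  have hcl : IsClosed {p : H × H | inner ℂ p.2 S.vac = inner ℂ S.vac p.1} :=
    isClosed_eq (by fun_prop) (by fun_prop)
  have hsub : (Set.range fun a : S.M => ((a : H →L[ℂ] H) S.vac, star (a : H →L[ℂ] H) S.vac)) ⊆
      {p : H × H | inner ℂ p.2 S.vac = inner ℂ S.vac p.1} := by
    rintro _ ⟨a, rfl⟩
    simp only [Set.mem_ofPred_eq]
    rw [ContinuousLinearMap.star_eq_adjoint, ContinuousLinearMap.adjoint_inner_left]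
  exact closure_minimal hsub hcl hmem

lemma inner_J (x y : H) : inner ℂ (S.J x) (S.J y) = inner ℂ y x := by
  have hI : ∀ z : H, S.J (Complex.I • z) = -(Complex.I • S.J z) := by
    intro z
    rw [LinearIsometryEquiv.map_smulₛₗ]
    simp
  have h1 : ‖S.J x + S.J y‖ = ‖y + x‖ := by
    rw [← map_add, LinearIsometryEquiv.norm_map, add_comm]
  have h2 : ‖S.J x - S.J y‖ = ‖y - x‖ := by
    rw [← map_sub, LinearIsometryEquiv.norm_map, norm_sub_rev]
  have h3 : ‖S.J x - Complex.I • S.J y‖ = ‖y - Complex.I • x‖ := by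
    have e1 : S.J x - Complex.I • S.J y = S.J (x + Complex.I • y) := by
      rw [map_add, hI]; abel
    have e2 : y - Complex.I • x = (-Complex.I) • (x + Complex.I • y) := by
      rw [smul_add, smul_smul]
      simp [sub_eq_add_neg, add_comm]
    rw [e1, e2, LinearIsometryEquiv.norm_map, norm_smul]
    simp
  have h4 : ‖S.J x + Complex.I • S.J y‖ = ‖y + Complex.I • x‖ := by
    have e1 : S.J x + Complex.I • S.J y = S.J (x - Complex.I • y) := by
      rw [map_sub, hI]; abel
    have e2 : y + Complex.I • x = Complex.I • (x - Complex.I • y) := by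
      rw [smul_sub, smul_smul]
      simp [add_comm]
    rw [e1, e2, LinearIsometryEquiv.norm_map, norm_smul]
    simp
  rw [inner_eq_sum_norm_sq_div_four (𝕜 := ℂ) (S.J x) (S.J y),
    inner_eq_sum_norm_sq_div_four (𝕜 := ℂ) y x]
  simp only [RCLike.I_to_complex]
  rw [h1, h2, h3, h4]

/-- `exp(D/2) ξ = J ξ` -/
lemma apply_J_vac (f g : BC) (hfg : ∀ u : ℝ, g u = f u * ((Real.exp (u / 2) : ℝ) : ℂ)) :
    S.D.apply f (S.J S.vac) = S.D.apply g S.vac := by
  have h := tomita_mem S (one_mem S.M)
  simp only [star_one, one_apply_eq_self] at h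
  exact h f g hfg

lemma apply_vac (f g : BC) (hfg : ∀ u : ℝ, g u = f u * ((Real.exp (u / 2) : ℝ) : ℂ)) :
    S.D.apply g (S.J S.vac) = S.D.apply f S.vac := by
  refine ext_inner_right ℂ fun x => ?_
  -- the pair (star f (D) x, J (star g (D) x))
  have hh : S.D.HalfExp (S.D.apply (star f) x) (S.J (S.J (S.D.apply (star g) x))) := by
    intro f' g' hf'g'
    rw [S.J_J, apply_comm, apply_comm]
    congr 2
    ext u
    simp only [BoundedContinuousFunction.mul_apply, BoundedContinuousFunction.star_apply,
      RCLike.star_def, hfg u, hf'g' u, map_mul, Complex.conj_ofReal]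
    ring
  have h := inner_of_halfExp S hh
  have h2 : inner ℂ (S.J (S.D.apply (star g) x)) S.vac =
      inner ℂ (S.J S.vac) (S.D.apply (star g) x) := by
    conv_lhs => rw [← S.J_J S.vac]
    rw [inner_J]
  rw [h2] at h
  rw [inner_apply_left, inner_apply_left, h]

/-- the vacuum is supported at the origin -/
lemma supported_vac : S.D.SupportedIn {0} S.vac := by
  -- step 1: tanh-like function kills the vacuum
  intro φ hφ
  have hφ0 : φ 0 = 0 := hφ 0 rfl
  -- (i): for every plateau-type k
  have key : ∀ k : BC, HasCompactSupport (k : ℝ → ℂ) →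
      ∀ g : BC, (∀ u, g u = k u * ((Real.exp u - 1 : ℝ) : ℂ)) → S.D.apply g S.vac = 0 := by
    intro k hk g hg
    -- build k * exp(u/2) and k * exp u
    obtain ⟨R, hR⟩ := hk.isBounded.subset_closedBall (0 : ℝ)
    have mk : ∀ c : ℝ, ∃ g' : BC, ∀ u, g' u = k u * ((Real.exp (c * u) : ℝ) : ℂ) := by
      intro c
      refine ⟨BoundedContinuousFunction.ofNormedAddCommGroup
        (fun u => k u * ((Real.exp (c * u) : ℝ) : ℂ)) (by fun_prop)
        (‖k‖ * Real.exp (|c| * R)) (fun u => ?_), fun u => rfl⟩
      by_cases hu : u ∈ tsupport (k : ℝ → ℂ)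
      · have hu' := hR hu
        rw [mem_closedBall_zero_iff, Real.norm_eq_abs] at hu'
        rw [norm_mul, Complex.norm_real, Real.norm_of_nonneg (Real.exp_pos _).le]
        refine mul_le_mul (k.norm_coe_le_norm u) (Real.exp_le_exp.2 ?_) (Real.exp_pos _).le
          (norm_nonneg _)
        calc c * u ≤ |c * u| := le_abs_self _
          _ = |c| * |u| := abs_mul _ _
          _ ≤ |c| * R := mul_le_mul_of_nonneg_left hu' (abs_nonneg _)
      · rw [image_eq_zero_of_notMem_tsupport hu]
        simp only [zero_mul, norm_zero]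
        positivity
    obtain ⟨k1, hk1⟩ := mk (1 / 2)
    obtain ⟨k2, hk2⟩ := mk 1
    have e1 : S.D.apply k1 (S.J S.vac) = S.D.apply k S.vac :=
      apply_vac S k k1 fun u => by rw [hk1 u]; congr 3; ring
    have e2 : S.D.apply k1 (S.J S.vac) = S.D.apply k2 S.vac := by
      refine apply_J_vac S k1 k2 fun u => ?_
      rw [hk1, hk2, mul_assoc, ← Complex.ofReal_mul, ← Real.exp_add]
      congr 3; ring
    have e3 : g = k2 - k := by
      ext u
      rw [BoundedContinuousFunction.sub_apply, hg, hk2]
      push_cast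
      rw [one_mul]
      ring
    rw [e3, map_sub, _root_.sub_apply, ← e2, e1, sub_self]
  -- (ii) approximate `φ * plateau n`
  have hn : ∀ n : ℕ, S.D.apply (φ * plateau n) S.vac = 0 := by
    intro n
    set ψ : BC := φ * plateau n with hψ
    have hψ0 : ψ 0 = 0 := by rw [hψ, BoundedContinuousFunction.mul_apply, hφ0, zero_mul]
    have hψcs : HasCompactSupport (ψ : ℝ → ℂ) := by
      have : (ψ : ℝ → ℂ) = fun u => φ u * plateau n u := by
        ext u; rw [hψ, BoundedContinuousFunction.mul_apply]
      rw [this]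
      exact (hasCompactSupport_plateau (n : ℝ)).mul_left
    rw [← norm_le_zero_iff]
    refine le_of_forall_pos_le_add fun ε hε => ?_
    rw [zero_add]
    have hvac : ‖S.vac‖ = 1 := S.norm_vac
    -- choose δ from continuity at 0
    have hcont : ContinuousAt (ψ : ℝ → ℂ) 0 := ψ.continuous.continuousAt
    obtain ⟨δ, hδ, hδε⟩ := Metric.continuousAt_iff.1 hcont ε hε
    -- lower bound for |exp u - 1| when |u| ≥ δ
    have hlow : ∀ u : ℝ, δ ≤ |u| → (1 - Real.exp (-δ)) ^ 2 ≤ (Real.exp u - 1) ^ 2 := by
      intro u hu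
      have h0 : Real.exp (-δ) < 1 := by rw [Real.exp_lt_one_iff]; linarith
      rcases le_abs.1 hu with h | h
      · have h1 : Real.exp δ ≤ Real.exp u := Real.exp_le_exp.2 h
        have h2 : 1 - Real.exp (-δ) ≤ Real.exp δ - 1 := by
          have h3 : Real.exp δ * Real.exp (-δ) = 1 := by rw [← Real.exp_add]; simp
          nlinarith [Real.exp_pos δ, Real.exp_pos (-δ), sq_nonneg (Real.exp δ - 1)]
        have h4 : 1 - Real.exp (-δ) ≤ Real.exp u - 1 := by linarith
        exact pow_le_pow_left₀ (by linarith) h4 2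
      · have h1 : Real.exp u ≤ Real.exp (-δ) := Real.exp_le_exp.2 (by linarith)
        have h4 : 1 - Real.exp (-δ) ≤ 1 - Real.exp u := by linarith
        have := pow_le_pow_left₀ (by linarith) h4 2
        calc _ ≤ (1 - Real.exp u) ^ 2 := this
          _ = _ := by ring
    set m : ℝ := (1 - Real.exp (-δ)) ^ 2 with hm
    have hmpos : 0 < m := by
      have h0 : Real.exp (-δ) < 1 := by rw [Real.exp_lt_one_iff]; linarith
      positivity
    -- choose η small
    set η : ℝ := ε * m / (‖ψ‖ + 1) with hη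
    have hηpos : 0 < η := by positivity
    -- the approximant
    let q : ℝ → ℝ := fun u => (Real.exp u - 1) / ((Real.exp u - 1) ^ 2 + η)
    have hden : ∀ u : ℝ, 0 < (Real.exp u - 1) ^ 2 + η := fun u => by positivity
    have hq : Continuous q := by
      have : Continuous fun u : ℝ => Real.exp u - 1 := by fun_prop
      exact this.div (by fun_prop) fun u => (hden u).ne'
    have hqb : ∀ u, |q u| ≤ 1 / η + 1 := by
      intro u
      simp only [q]
      rw [abs_div, abs_of_pos (hden u), div_le_iff₀ (hden u)]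
      have h1 : |Real.exp u - 1| ≤ (Real.exp u - 1) ^ 2 + 1 := by
        have := sq_abs (Real.exp u - 1)
        nlinarith [sq_nonneg (|Real.exp u - 1| - 1), abs_nonneg (Real.exp u - 1)]
      have h2 : (1 / η + 1) * ((Real.exp u - 1) ^ 2 + η) =
          (Real.exp u - 1) ^ 2 / η + 1 + (Real.exp u - 1) ^ 2 + η := by
        field_simp
        ring
      rw [h2]
      have : 0 ≤ (Real.exp u - 1) ^ 2 / η := by positivity
      linarith
    let k : BC := BoundedContinuousFunction.ofNormedAddCommGroup (fun u => ψ u * ((q u : ℝ) : ℂ))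
      (by fun_prop) (‖ψ‖ * (1 / η + 1)) (fun u => by
        rw [norm_mul, Complex.norm_real, Real.norm_eq_abs]
        exact mul_le_mul (ψ.norm_coe_le_norm u) (hqb u) (abs_nonneg _) (norm_nonneg _))
    have hk : ∀ u, k u = ψ u * ((q u : ℝ) : ℂ) := fun u => rfl
    have hkcs : HasCompactSupport (k : ℝ → ℂ) := by
      have : (k : ℝ → ℂ) = fun u => ψ u * ((q u : ℝ) : ℂ) := rfl
      rw [this]
      exact hψcs.mul_right
    let g : BC := BoundedContinuousFunction.ofNormedAddCommGroup
      (fun u => ψ u * (((Real.exp u - 1) ^ 2 / ((Real.exp u - 1) ^ 2 + η) : ℝ) : ℂ))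
      (by
        have : Continuous fun u : ℝ => (Real.exp u - 1) ^ 2 / ((Real.exp u - 1) ^ 2 + η) :=
          Continuous.div (by fun_prop) (by fun_prop) fun u => (hden u).ne'
        fun_prop) (‖ψ‖ * 1) (fun u => by
        rw [norm_mul, Complex.norm_real, Real.norm_of_nonneg (by positivity)]
        refine mul_le_mul (ψ.norm_coe_le_norm u) ?_ (by positivity) (norm_nonneg _)
        rw [div_le_one (hden u)]; linarith)
    have hg : ∀ u, g u = ψ u * (((Real.exp u - 1) ^ 2 / ((Real.exp u - 1) ^ 2 + η) : ℝ) : ℂ) :=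
      fun u => rfl
    have hgvac : S.D.apply g S.vac = 0 := by
      refine key k hkcs g fun u => ?_
      rw [hg, hk, mul_assoc, ← Complex.ofReal_mul]
      congr 2
      simp only [q]
      ring
    have hsub : S.D.apply ψ S.vac = S.D.apply (ψ - g) S.vac := by
      rw [map_sub, _root_.sub_apply, hgvac, sub_zero]
    rw [hsub]
    refine (norm_apply_apply_le S.D _ _).trans ?_
    rw [hvac, mul_one]
    refine (BoundedContinuousFunction.norm_le hε.le).2 fun u => ?_
    have hdiff : (ψ - g) u = ψ u * ((η / ((Real.exp u - 1) ^ 2 + η) : ℝ) : ℂ) := by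
      rw [BoundedContinuousFunction.sub_apply, hg]
      have : (η / ((Real.exp u - 1) ^ 2 + η) : ℝ) =
          1 - (Real.exp u - 1) ^ 2 / ((Real.exp u - 1) ^ 2 + η) := by
        have := (hden u).ne'
        field_simp
        ring
      rw [this]; push_cast; ring
    rw [hdiff, norm_mul, Complex.norm_real, Real.norm_of_nonneg (by have := hden u; positivity)]
    rcases lt_or_ge |u| δ with h | h
    · have h1 : ‖ψ u‖ < ε := by
        have := hδε (x := u) (by rwa [Real.dist_eq, sub_zero])
        rwa [hψ0, dist_zero_right] at this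
      have h2 : η / ((Real.exp u - 1) ^ 2 + η) ≤ 1 := by
        rw [div_le_one (hden u)]
        nlinarith [sq_nonneg (Real.exp u - 1)]
      calc ‖ψ u‖ * (η / ((Real.exp u - 1) ^ 2 + η)) ≤ ‖ψ u‖ * 1 :=
            mul_le_mul_of_nonneg_left h2 (norm_nonneg _)
        _ ≤ ε := by linarith
    · have h1 : η / ((Real.exp u - 1) ^ 2 + η) ≤ η / m := by
        apply div_le_div_of_nonneg_left hηpos.le hmpos
        linarith [hlow u h]
      calc ‖ψ u‖ * (η / ((Real.exp u - 1) ^ 2 + η)) ≤ ‖ψ‖ * (η / m) :=
            mul_le_mul (ψ.norm_coe_le_norm u) h1 (by have := hden u; positivity) (norm_nonneg _)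
        _ = ε * (‖ψ‖ / (‖ψ‖ + 1)) := by rw [hη]; field_simp
        _ ≤ ε * 1 := by
            apply mul_le_mul_of_nonneg_left _ hε.le
            rw [div_le_one (by positivity)]; linarith
        _ = ε := mul_one _
  -- (iii) conclude with plateaus
  have hlim : Tendsto (fun n : ℕ => S.D.apply φ (S.D.apply (plateau n) S.vac)) atTop
      (𝓝 (S.D.apply φ S.vac)) :=
    ((S.D.apply φ).continuous.tendsto _).comp (tendsto_plateau S.D S.vac)
  have hz : ∀ n : ℕ, S.D.apply φ (S.D.apply (plateau n) S.vac) = 0 := by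
    intro n; rw [apply_comm]; exact hn n
  exact tendsto_nhds_unique hlim (by simp only [hz]; exact tendsto_const_nhds)

lemma wave_vac (t : ℝ) : S.D.wave t S.vac = S.vac := by
  have h1 : S.D.apply (LineCalculus.character t) S.vac = S.D.apply 1 S.vac := by
    refine apply_eq_of_eqOn (supported_vac S) _ _ fun u hu => ?_
    rw [Set.mem_singleton_iff] at hu
    rw [hu, character_apply]
    simp
  change S.D.apply (LineCalculus.character t) S.vac = S.vac
  rw [h1, map_one]; rfl

end modular

end Crest.Agent.H3.BR
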