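import Crest.Agent.H3.BRMean

/-! Bounded-recovery helper: smearing, truncation and the selection step. -/

set_option autoImplicit false

namespace Crest.Agent.H3.BR

open MeasureTheory Filter Topology Crest.OpAlg
open scoped BoundedContinuousFunction InnerProductSpace

variable {H : Type*} [NormedAddCommGroup H] [InnerProductSpace ℂ H] [CompleteSpace H]
variable (S : ModularDatum H)

lemma mem_of_commutes {E : H →L[ℂ] H} (h : ∀ z ∈ S.M.commutant, z * E = E * z) : E ∈ S.M := by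
  rw [← S.M.commutant_commutant, VonNeumannAlgebra.mem_commutant_iff]
  exact h

lemma commutes_of_mem {x z : H →L[ℂ] H} (hx : x ∈ S.M) (hz : z ∈ S.M.commutant) :
    z * x = x * z :=
  ((VonNeumannAlgebra.mem_commutant_iff.1 hz) x hx).symm

lemma smul_mem_M {x : H →L[ℂ] H} (hx : x ∈ S.M) (c : ℂ) : c • x ∈ S.M := by
  refine mem_of_commutes S fun z hz => ?_
  rw [mul_smul_comm, smul_mul_assoc, commutes_of_mem S hx hz]

lemma exists_smear (ρ : ℝ → ℂ) (hρ : Integrable ρ) {w : H →L[ℂ] H} (hw : w ∈ S.M) :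
    ∃ F : H →L[ℂ] H, F ∈ S.M ∧ ‖F‖ ≤ (∫ t, ‖ρ t‖) * ‖w‖ ∧
      ∀ x, F x = ∫ t, ρ t • S.flow t w x := by
  have hint : ∀ x : H, Integrable (fun t => ρ t • S.flow t w x) := by
    intro x
    refine (hρ.norm.mul_const (‖w‖ * ‖x‖)).mono'
      (hρ.1.smul (continuous_flow S w x).aestronglyMeasurable) ?_
    filter_upwards with t
    rw [norm_smul]
    exact mul_le_mul_of_nonneg_left (norm_flow_apply_le S t w x) (norm_nonneg _)
  let F₀ : H →ₗ[ℂ] H :=
    { toFun := fun x => ∫ t, ρ t • S.flow t w x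
      map_add' := fun x y => by
        rw [← integral_add (hint x) (hint y)]
        refine integral_congr_ae ?_
        filter_upwards with t
        rw [map_add, smul_add]
      map_smul' := fun c x => by
        simp only [RingHom.id_apply]
        rw [← integral_smul]
        refine integral_congr_ae ?_
        filter_upwards with t
        rw [map_smul, smul_comm] }
  have hb : ∀ x, ‖F₀ x‖ ≤ (∫ t, ‖ρ t‖) * ‖w‖ * ‖x‖ := by
    intro x
    change ‖∫ t, ρ t • S.flow t w x‖ ≤ _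
    rw [mul_assoc, ← integral_mul_const]
    refine norm_integral_le_of_norm_le (hρ.norm.mul_const _) ?_
    filter_upwards with t
    rw [norm_smul]
    exact mul_le_mul_of_nonneg_left (norm_flow_apply_le S t w x) (norm_nonneg _)
  refine ⟨F₀.mkContinuous _ hb, ?_, F₀.mkContinuous_norm_le (by positivity) hb, fun x => rfl⟩
  refine mem_of_commutes S fun z hz => ?_
  ext x
  change z (∫ t, ρ t • S.flow t w x) = ∫ t, ρ t • S.flow t w (z x)
  rw [← z.integral_comp_comm (hint x)]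
  refine integral_congr_ae ?_
  filter_upwards with t
  rw [map_smul]
  congr 1
  exact congrArg (fun L : H →L[ℂ] H => L x) (commutes_of_mem S (flow_mem S hw t) hz)

lemma exists_smooth (s : ℝ) {δ : ℝ} (hδ : 0 < δ) {w : H →L[ℂ] H} (hw : w ∈ S.M) :
    ∃ F : H →L[ℂ] H, F ∈ S.M ∧ ‖F‖ ≤ rhoC * ‖w‖ ∧
      F S.vac = S.D.apply (bumpBC s δ) (w S.vac) := by
  obtain ⟨F, hF, hFn, hFx⟩ := exists_smear S (rho s δ) (integrable_rho s hδ) hw
  refine ⟨F, hF, ?_, ?_⟩
  · rwa [integral_norm_rho s hδ] at hFn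
  · rw [hFx]
    simp only [flow_vac]
    exact integral_wave S.D _ (integrable_rho s hδ) _ (integral_rho s hδ) _

lemma inner_star_mul (v : H →L[ℂ] H) (x y : H) :
    inner ℂ x ((star v * v) y) = inner ℂ (v x) (v y) := by
  change inner ℂ x (star v (v y)) = _
  rw [ContinuousLinearMap.star_eq_adjoint, ContinuousLinearMap.adjoint_inner_right]

lemma re_inner_star_mul_self (v : H →L[ℂ] H) (x : H) :
    (inner ℂ x ((star v * v) x) : ℂ).re = ‖v x‖ ^ 2 := by
  rw [inner_star_mul]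
  exact inner_self_eq_norm_sq (𝕜 := ℂ) (v x)

/-- resolvent truncation -/
lemma exists_trunc {v : H →L[ℂ] H} (hv : v ∈ S.M) {κ : ℝ} (hκ : 0 < κ) :
    ∃ w : H →L[ℂ] H, w ∈ S.M ∧ (∀ x, 2 * κ * ‖w x‖ ^ 2 ≤ ‖x‖ ^ 2) ∧
      ∀ x, ‖(v - w) x‖ ^ 2 ≤ κ / 2 * ‖(star v * v) x‖ ^ 2 := by
  set y : H →L[ℂ] H := star v * v with hy
  have hyM : y ∈ S.M := mul_mem (star_mem hv) hv
  set Q : H →L[ℂ] H := 1 + (κ : ℂ) • y with hQ
  have hQM : Q ∈ S.M := add_mem (one_mem _) (smul_mem_M S hyM _)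
  have hQre : ∀ x, (inner ℂ x (Q x) : ℂ).re = ‖x‖ ^ 2 + κ * ‖v x‖ ^ 2 := by
    intro x
    have : Q x = x + (κ : ℂ) • y x := rfl
    rw [this, inner_add_right, inner_smul_right, Complex.add_re, Complex.re_ofReal_mul,
      re_inner_star_mul_self]
    congr 1
    exact inner_self_eq_norm_sq (𝕜 := ℂ) x
  have hunit : IsUnit Q := by
    refine ContinuousLinearMap.isUnit_of_forall_le_norm_inner_map Q (c := 1) one_pos fun x => ?_
    rw [norm_inner_symm]
    calc ‖x‖ ^ 2 * ((1 : NNReal) : ℝ) ≤ ‖x‖ ^ 2 + κ * ‖v x‖ ^ 2 := by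
          simp; positivity
      _ = (inner ℂ x (Q x) : ℂ).re := (hQre x).symm
      _ ≤ ‖(inner ℂ x (Q x) : ℂ)‖ := Complex.re_le_norm _
  obtain ⟨u, hu⟩ := hunit
  set R : H →L[ℂ] H := ((u⁻¹ : (H →L[ℂ] H)ˣ) : H →L[ℂ] H) with hR
  have hQR : Q * R = 1 := by rw [← hu]; exact u.mul_inv
  have hRQ : R * Q = 1 := by rw [← hu]; exact u.inv_mul
  have hRM : R ∈ S.M := by
    refine mem_of_commutes S fun z hz => ?_
    have hc := commutes_of_mem S hQM hz
    calc z * R = (R * Q) * z * R := by rw [hRQ, one_mul]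
      _ = R * (Q * z) * R := by simp only [mul_assoc]
      _ = R * (z * Q) * R := by rw [hc]
      _ = R * z * (Q * R) := by simp only [mul_assoc]
      _ = R * z := by rw [hQR, mul_one]
  have hyQ : y * Q = Q * y := by
    rw [hQ, mul_add, add_mul, mul_one, one_mul, mul_smul_comm, smul_mul_assoc]
  have hyR : y * R = R * y := by
    calc y * R = (R * Q) * y * R := by rw [hRQ, one_mul]
      _ = R * (Q * y) * R := by simp only [mul_assoc]
      _ = R * (y * Q) * R := by rw [hyQ]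
      _ = R * y * (Q * R) := by simp only [mul_assoc]
      _ = R * y := by rw [hQR, mul_one]
  -- x = z + κ y z for z = R x
  have hdec : ∀ x, x = R x + (κ : ℂ) • y (R x) := by
    intro x
    have h1 : (Q * R) x = x := by rw [hQR]; rfl
    conv_lhs => rw [← h1]
    rfl
  have hnorm : ∀ z : H, 2 * κ * ‖v z‖ ^ 2 ≤ ‖z + (κ : ℂ) • y z‖ ^ 2 := by
    intro z
    have h1 : ‖z + (κ : ℂ) • y z‖ ^ 2 = ‖z‖ ^ 2 + 2 * (inner ℂ z ((κ : ℂ) • y z) : ℂ).re
        + ‖(κ : ℂ) • y z‖ ^ 2 := norm_add_sq (𝕜 := ℂ) z _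
    rw [inner_smul_right, Complex.re_ofReal_mul, re_inner_star_mul_self] at h1
    rw [h1]
    nlinarith [sq_nonneg ‖z‖, sq_nonneg ‖(κ : ℂ) • y z‖]
  refine ⟨v * R, mul_mem hv hRM, fun x => ?_, fun x => ?_⟩
  · have := hnorm (R x)
    rw [← hdec x] at this
    exact this
  · have h1 : (v - v * R) x = (κ : ℂ) • v (y (R x)) := by
      have h0 : x - R x = (κ : ℂ) • y (R x) := by
        nth_rewrite 1 [hdec x]
        abel
      change v x - v (R x) = _
      rw [← map_sub, h0, map_smul]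
    have h2 : y (R x) = R (y x) := congrArg (fun L : H →L[ℂ] H => L x) hyR
    have h3 := hnorm (R (y x))
    rw [← hdec (y x)] at h3
    rw [h1, h2, norm_smul, mul_pow, Complex.norm_real, Real.norm_of_nonneg hκ.le]
    have h4 : κ ^ 2 * ‖v (R (y x))‖ ^ 2 = κ / 2 * (2 * κ * ‖v (R (y x))‖ ^ 2) := by ring
    rw [h4]
    exact mul_le_mul_of_nonneg_left h3 (by positivity)

lemma hasMean_comb (ω : Ultrafilter ℕ) (hω : (ω : Filter ℕ) ≤ atTop) {f1 f2 f3 f4 : ℝ → ℝ}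
    {m1 m2 m3 m4 : ℝ} (h1 : HasMean ω f1 m1) (h2 : HasMean ω f2 m2) (h3 : HasMean ω f3 m3)
    (h4 : HasMean ω f4 m4) (c1 : Continuous f1) (c2 : Continuous f2) (c3 : Continuous f3)
    (c4 : Continuous f4) (a0 a1 a2 a3 a4 : ℝ) {L : ℝ → ℝ} {m : ℝ}
    (hL : ∀ t, L t = a1 * f1 t + (a2 * f2 t + (a3 * f3 t + (a4 * f4 t + a0))))
    (hm : m = a1 * m1 + (a2 * m2 + (a3 * m3 + (a4 * m4 + a0)))) : HasMean ω L m := by
  have hL' : L = fun t => a1 • f1 t + (a2 • f2 t + (a3 • f3 t + (a4 • f4 t + a0))) := by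
    funext t; rw [hL t]; rfl
  rw [hL', hm]
  exact (h1.const_smul a1).add ((h2.const_smul a2).add ((h3.const_smul a3).add
    ((h4.const_smul a4).add (hasMean_const ω hω a0) (by fun_prop) (by fun_prop))
      (by fun_prop) (by fun_prop)) (by fun_prop) (by fun_prop)) (by fun_prop) (by fun_prop)

/-- real mean of the real part -/
lemma hasMean_re_flow (herg : S.Ergodic) (ω : Ultrafilter ℕ) (hω : (ω : Filter ℕ) ≤ atTop)
    {x : H →L[ℂ] H} (hx : x ∈ S.M) (v w : H) :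
    HasMean ω (fun t => (inner ℂ v (S.flow t x w) : ℂ).re)
      (inner ℂ S.vac (x S.vac) * inner ℂ v w : ℂ).re :=
  (hasMean_flow S herg ω hω hx v w).clm (continuous_inner_flow S x v w) Complex.reCLM

lemma inner_vac_star_mul (v : H →L[ℂ] H) :
    (inner ℂ S.vac ((star v * v) S.vac) : ℂ) = ((‖v S.vac‖ ^ 2 : ℝ) : ℂ) := by
  rw [inner_star_mul, inner_self_eq_norm_sq_to_K]
  simp

lemma inner_vac_mul_star (v : H →L[ℂ] H) :
    (inner ℂ S.vac ((v * star v) S.vac) : ℂ) = ((‖star v S.vac‖ ^ 2 : ℝ) : ℂ) := by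
  have h := inner_vac_star_mul S (star v)
  rwa [star_star] at h

section step

variable (T : H →L[ℂ] H)

/-- the potential with `r` steps to go -/
noncomputable def pot (lam m A B D0 : ℝ) (r : ℕ) (V : H →L[ℂ] H) : ℝ :=
  lam * (‖T (V S.vac)‖ ^ 2 + r * m) - ‖(star V * V) S.vac‖ ^ 2
    - r * (2 * A + 2 * B) * ‖V S.vac‖ ^ 2 - 2 * r * A * ‖star V S.vac‖ ^ 2
    - (r * (r - 1) / 2) * (2 * A ^ 2 + 4 * A * B) - r * D0

omit [CompleteSpace H] in
/-- averaging over signs -/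
lemma norm_sq_avg (x y : H) : ‖x + y‖ ^ 2 + ‖x - y‖ ^ 2 = 2 * (‖x‖ ^ 2 + ‖y‖ ^ 2) := by
  have := parallelogram_law_with_norm ℂ x y
  nlinarith [this]

lemma step_sign {lam : ℝ} (hlam : 0 ≤ lam) {A B D0 m : ℝ} {a : H →L[ℂ] H} (ha : a ∈ S.M)
    (hA : A = ‖a S.vac‖ ^ 2) (hB : B = ‖star a S.vac‖ ^ 2) (hD : D0 = ‖(star a * a) S.vac‖ ^ 2)
    (r : ℕ) (V : H →L[ℂ] H) (t : ℝ) :
    lam * (‖T (V S.vac)‖ ^ 2 + ‖T (S.D.wave t (a S.vac))‖ ^ 2 + r * m)
      - (‖(star V * V) S.vac‖ ^ 2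
          + 2 * (inner ℂ ((star V * V) S.vac) (S.flow t (star a * a) S.vac) : ℂ).re + D0
          + 2 * (inner ℂ (a S.vac) (S.flow (-t) (V * star V) (a S.vac)) : ℂ).re
          + 2 * (inner ℂ (V S.vac) (S.flow t (a * star a) (V S.vac)) : ℂ).re)
      - r * (2 * A + 2 * B) * (‖V S.vac‖ ^ 2 + A) - 2 * r * A * (‖star V S.vac‖ ^ 2 + B)
      - (r * (r - 1) / 2) * (2 * A ^ 2 + 4 * A * B) - r * D0
    ≤ (pot S T lam m A B D0 r (V + S.flow t a) + pot S T lam m A B D0 r (V - S.flow t a)) / 2 := by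
  set b := S.flow t a with hb
  have hbv : b S.vac = S.D.wave t (a S.vac) := flow_vac S t a
  have hsb : star b = S.flow t (star a) := star_flow S t a
  have hbb : star b * b = S.flow t (star a * a) := by rw [hsb, hb, flow_mul]
  have hbb' : b * star b = S.flow t (a * star a) := by rw [hsb, hb, flow_mul]
  have hbA : ‖b S.vac‖ ^ 2 = A := by rw [hbv, norm_wave_apply, hA]
  have hbB : ‖star b S.vac‖ ^ 2 = B := by rw [hsb, flow_vac, norm_wave_apply, hB]
  have hbD : ‖(star b * b) S.vac‖ ^ 2 = D0 := by rw [hbb, flow_vac, norm_wave_apply, hD]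
  -- T part
  have e1 : ‖T ((V + b) S.vac)‖ ^ 2 + ‖T ((V - b) S.vac)‖ ^ 2 =
      2 * (‖T (V S.vac)‖ ^ 2 + ‖T (S.D.wave t (a S.vac))‖ ^ 2) := by
    rw [← hbv]
    have h1 : T ((V + b) S.vac) = T (V S.vac) + T (b S.vac) := by
      rw [← map_add]; rfl
    have h2 : T ((V - b) S.vac) = T (V S.vac) - T (b S.vac) := by
      rw [← map_sub]; rfl
    rw [h1, h2, norm_sq_avg]
  have e2 : ‖(V + b) S.vac‖ ^ 2 + ‖(V - b) S.vac‖ ^ 2 = 2 * (‖V S.vac‖ ^ 2 + A) := by
    rw [← hbA]; exact norm_sq_avg _ _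
  have e3 : ‖star (V + b) S.vac‖ ^ 2 + ‖star (V - b) S.vac‖ ^ 2 =
      2 * (‖star V S.vac‖ ^ 2 + B) := by
    rw [← hbB, star_add, star_sub]; exact norm_sq_avg _ _
  -- fourth order part
  set P : H := (star V * V) S.vac + (star b * b) S.vac with hP
  set Z : H := star V (b S.vac) + star b (V S.vac) with hZ
  have f1 : (star (V + b) * (V + b)) S.vac = P + Z := by
    rw [star_add, hP, hZ]
    change (star V + star b) (V S.vac + b S.vac) = star V (V S.vac) + star b (b S.vac) + _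
    rw [_root_.add_apply, map_add, map_add]
    abel
  have f2 : (star (V - b) * (V - b)) S.vac = P - Z := by
    rw [star_sub, hP, hZ]
    change (star V - star b) (V S.vac - b S.vac) = star V (V S.vac) + star b (b S.vac) - _
    rw [_root_.sub_apply, map_sub, map_sub]
    abel
  have e4 : ‖(star (V + b) * (V + b)) S.vac‖ ^ 2 + ‖(star (V - b) * (V - b)) S.vac‖ ^ 2 =
      2 * (‖P‖ ^ 2 + ‖Z‖ ^ 2) := by rw [f1, f2, norm_sq_avg]
  have e5 : ‖P‖ ^ 2 = ‖(star V * V) S.vac‖ ^ 2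
      + 2 * (inner ℂ ((star V * V) S.vac) (S.flow t (star a * a) S.vac) : ℂ).re + D0 := by
    rw [hP, norm_add_sq (𝕜 := ℂ), hbD, hbb]
    rfl
  have e6 : ‖star V (b S.vac)‖ ^ 2 =
      (inner ℂ (a S.vac) (S.flow (-t) (V * star V) (a S.vac)) : ℂ).re := by
    have h1 := re_inner_star_mul_self (star V) (b S.vac)
    rw [star_star] at h1
    rw [← h1, hbv, flow_apply, neg_neg]
    congr 1
    rw [inner_wave_left]
  have e7 : ‖star b (V S.vac)‖ ^ 2 =
      (inner ℂ (V S.vac) (S.flow t (a * star a) (V S.vac)) : ℂ).re := by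
    have h1 := re_inner_star_mul_self (star b) (V S.vac)
    rw [star_star, hbb'] at h1
    exact h1.symm
  have e8 : ‖Z‖ ^ 2 ≤ 2 * ‖star V (b S.vac)‖ ^ 2 + 2 * ‖star b (V S.vac)‖ ^ 2 := by
    have := norm_sq_avg (star V (b S.vac)) (star b (V S.vac))
    rw [hZ]
    nlinarith [sq_nonneg ‖star V (b S.vac) - star b (V S.vac)‖]
  rw [e6, e7] at e8
  have key : (pot S T lam m A B D0 r (V + b) + pot S T lam m A B D0 r (V - b)) / 2 =
      lam * (‖T (V S.vac)‖ ^ 2 + ‖T (S.D.wave t (a S.vac))‖ ^ 2 + r * m) - (‖P‖ ^ 2 + ‖Z‖ ^ 2)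
      - r * (2 * A + 2 * B) * (‖V S.vac‖ ^ 2 + A) - 2 * r * A * (‖star V S.vac‖ ^ 2 + B)
      - (r * (r - 1) / 2) * (2 * A ^ 2 + 4 * A * B) - r * D0 := by
    unfold pot
    linear_combination (lam / 2) * e1 - (r * (2 * A + 2 * B) / 2) * e2 - (r * A) * e3 - (1 / 2) * e4
  rw [key]
  linarith [e5, e8]

/-- one selection step -/
lemma exists_step (herg : S.Ergodic) (ω : Ultrafilter ℕ) (hω : (ω : Filter ℕ) ≤ atTop)
    {lam : ℝ} (hlam : 0 ≤ lam) {A B D0 m : ℝ} {a : H →L[ℂ] H} (ha : a ∈ S.M)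
    (hA : A = ‖a S.vac‖ ^ 2) (hB : B = ‖star a S.vac‖ ^ 2) (hD : D0 = ‖(star a * a) S.vac‖ ^ 2)
    (hm : HasMean ω (fun t => ‖T (S.D.wave t (a S.vac))‖ ^ 2) m)
    {K : Set ℝ} (haK : S.D.SupportedIn K (a S.vac))
    (r : ℕ) {V : H →L[ℂ] H} (hV : V ∈ S.M) (hVK : S.D.SupportedIn K (V S.vac))
    {η : ℝ} (hη : 0 < η) :
    ∃ V' : H →L[ℂ] H, V' ∈ S.M ∧ S.D.SupportedIn K (V' S.vac) ∧
      pot S T lam m A B D0 (r + 1) V - η < pot S T lam m A B D0 r V' := by
  have hc4 : Continuous fun t => ‖T (S.D.wave t (a S.vac))‖ ^ 2 := by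
    have := continuous_wave S.D (a S.vac)
    fun_prop
  have h1 := hasMean_re_flow S herg ω hω (mul_mem (star_mem ha) ha : star a * a ∈ S.M)
    ((star V * V) S.vac) S.vac
  have h2 := hasMean_re_flow S herg ω hω (mul_mem ha (star_mem ha) : a * star a ∈ S.M)
    (V S.vac) (V S.vac)
  have h3 := (hasMean_re_flow S herg ω hω (mul_mem hV (star_mem hV) : V * star V ∈ S.M)
    (a S.vac) (a S.vac)).neg_arg
  have hc1 : Continuous fun t => (inner ℂ ((star V * V) S.vac)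
      (S.flow t (star a * a) S.vac) : ℂ).re :=
    Complex.continuous_re.comp (continuous_inner_flow S _ _ _)
  have hc2 : Continuous fun t => (inner ℂ (V S.vac) (S.flow t (a * star a) (V S.vac)) : ℂ).re :=
    Complex.continuous_re.comp (continuous_inner_flow S _ _ _)
  have hc3 : Continuous fun t => (inner ℂ (a S.vac)
      (S.flow (-t) (V * star V) (a S.vac)) : ℂ).re :=
    (Complex.continuous_re.comp (continuous_inner_flow S _ _ _)).comp continuous_neg
  -- values of the means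
  have v1 : (inner ℂ S.vac ((star a * a) S.vac) *
      inner ℂ ((star V * V) S.vac) S.vac : ℂ).re = A * ‖V S.vac‖ ^ 2 := by
    have hh : (inner ℂ ((star V * V) S.vac) S.vac : ℂ) = ((‖V S.vac‖ ^ 2 : ℝ) : ℂ) := by
      rw [← inner_conj_symm, inner_vac_star_mul, Complex.conj_ofReal]
    rw [inner_vac_star_mul, hh, ← Complex.ofReal_mul, Complex.ofReal_re, hA]
  have v2 : (inner ℂ S.vac ((a * star a) S.vac) *
      inner ℂ (V S.vac) (V S.vac) : ℂ).re = B * ‖V S.vac‖ ^ 2 := by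
    have hh : (inner ℂ (V S.vac) (V S.vac) : ℂ) = ((‖V S.vac‖ ^ 2 : ℝ) : ℂ) := by
      rw [inner_self_eq_norm_sq_to_K]; simp
    rw [inner_vac_mul_star, hh, ← Complex.ofReal_mul, Complex.ofReal_re, hB]
  have v3 : (inner ℂ S.vac ((V * star V) S.vac) *
      inner ℂ (a S.vac) (a S.vac) : ℂ).re = ‖star V S.vac‖ ^ 2 * A := by
    have hh : (inner ℂ (a S.vac) (a S.vac) : ℂ) = ((‖a S.vac‖ ^ 2 : ℝ) : ℂ) := by
      rw [inner_self_eq_norm_sq_to_K]; simp
    rw [inner_vac_mul_star, hh, ← Complex.ofReal_mul, Complex.ofReal_re, hA]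
  rw [v1] at h1
  rw [v2] at h2
  rw [v3] at h3
  -- the combined function
  let L : ℝ → ℝ := fun t =>
    lam * (‖T (V S.vac)‖ ^ 2 + ‖T (S.D.wave t (a S.vac))‖ ^ 2 + r * m)
      - (‖(star V * V) S.vac‖ ^ 2
          + 2 * (inner ℂ ((star V * V) S.vac) (S.flow t (star a * a) S.vac) : ℂ).re + D0
          + 2 * (inner ℂ (a S.vac) (S.flow (-t) (V * star V) (a S.vac)) : ℂ).re
          + 2 * (inner ℂ (V S.vac) (S.flow t (a * star a) (V S.vac)) : ℂ).re)
      - r * (2 * A + 2 * B) * (‖V S.vac‖ ^ 2 + A) - 2 * r * A * (‖star V S.vac‖ ^ 2 + B)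
      - (r * (r - 1) / 2) * (2 * A ^ 2 + 4 * A * B) - r * D0
  have hLc : Continuous L := by
    have hLL : L = fun t => lam * ‖T (S.D.wave t (a S.vac))‖ ^ 2 +
      ((-2) * (inner ℂ ((star V * V) S.vac) (S.flow t (star a * a) S.vac) : ℂ).re +
      ((-2) * (inner ℂ (a S.vac) (S.flow (-t) (V * star V) (a S.vac)) : ℂ).re +
      ((-2) * (inner ℂ (V S.vac) (S.flow t (a * star a) (V S.vac)) : ℂ).re +
      (lam * (‖T (V S.vac)‖ ^ 2 + r * m) - (‖(star V * V) S.vac‖ ^ 2 + D0)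
          - r * (2 * A + 2 * B) * (‖V S.vac‖ ^ 2 + A) - 2 * r * A * (‖star V S.vac‖ ^ 2 + B)
          - (r * (r - 1) / 2) * (2 * A ^ 2 + 4 * A * B) - r * D0)))) := by
      funext t
      simp only [L]
      ring
    rw [hLL]
    exact (hc4.const_mul _).add ((hc1.const_mul _).add ((hc3.const_mul _).add
      ((hc2.const_mul _).add continuous_const)))
  have hLm : HasMean ω L (pot S T lam m A B D0 (r + 1) V) := by
    refine hasMean_comb ω hω hm h1 h3 h2 hc4 hc1 hc3 hc2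
        (lam * (‖T (V S.vac)‖ ^ 2 + r * m) - (‖(star V * V) S.vac‖ ^ 2 + D0)
          - r * (2 * A + 2 * B) * (‖V S.vac‖ ^ 2 + A) - 2 * r * A * (‖star V S.vac‖ ^ 2 + B)
          - (r * (r - 1) / 2) * (2 * A ^ 2 + 4 * A * B) - r * D0) lam (-2) (-2) (-2) ?_ ?_
    · intro t
      simp only [L]
      ring
    · unfold pot
      rw [Nat.cast_succ]
      ring
  obtain ⟨t, ht⟩ := hLm.exists_gt hω hLc hη
  have hs := step_sign S T hlam (m := m) ha hA hB hD r V t
  have hMb := flow_mem S ha t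
  have hbK : S.D.SupportedIn K (S.flow t a S.vac) := by
    rw [flow_vac]; exact supported_wave haK t
  have hsum : pot S T lam m A B D0 (r + 1) V - η <
      (pot S T lam m A B D0 r (V + S.flow t a) + pot S T lam m A B D0 r (V - S.flow t a)) / 2 :=
    lt_of_lt_of_le ht hs
  by_cases hcase : pot S T lam m A B D0 (r + 1) V - η < pot S T lam m A B D0 r (V + S.flow t a)
  · exact ⟨V + S.flow t a, add_mem hV hMb, supported_add hVK hbK, hcase⟩
  · refine ⟨V - S.flow t a, sub_mem hV hMb, ?_, by linarith⟩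
    have := supported_add hVK (supported_smul hbK (-1))
    rwa [neg_one_smul, ← sub_eq_add_neg] at this

lemma exists_steps (herg : S.Ergodic) (ω : Ultrafilter ℕ) (hω : (ω : Filter ℕ) ≤ atTop)
    {lam : ℝ} (hlam : 0 ≤ lam) {A B D0 m : ℝ} {a : H →L[ℂ] H} (ha : a ∈ S.M)
    (hA : A = ‖a S.vac‖ ^ 2) (hB : B = ‖star a S.vac‖ ^ 2) (hD : D0 = ‖(star a * a) S.vac‖ ^ 2)
    (hm : HasMean ω (fun t => ‖T (S.D.wave t (a S.vac))‖ ^ 2) m)
    {K : Set ℝ} (haK : S.D.SupportedIn K (a S.vac)) {η : ℝ} (hη : 0 < η) :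
    ∀ (r : ℕ) {V : H →L[ℂ] H} (_ : V ∈ S.M) (_ : S.D.SupportedIn K (V S.vac)),
    ∃ V' : H →L[ℂ] H, V' ∈ S.M ∧ S.D.SupportedIn K (V' S.vac) ∧
      pot S T lam m A B D0 r V - r * η ≤ lam * ‖T (V' S.vac)‖ ^ 2 - ‖(star V' * V') S.vac‖ ^ 2 := by
  intro r
  induction r with
  | zero =>
    intro V hV hVK
    refine ⟨V, hV, hVK, ?_⟩
    simp [pot]
  | succ r ih =>
    intro V hV hVK
    obtain ⟨V', hV', hVK', h1⟩ := exists_step S T herg ω hω hlam ha hA hB hD hm haK r hV hVK hη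
    obtain ⟨V'', hV'', hVK'', h2⟩ := ih hV' hVK'
    refine ⟨V'', hV'', hVK'', ?_⟩
    rw [Nat.cast_succ]
    have h3 : ((r : ℝ) + 1) * η = r * η + η := by ring
    rw [h3]
    linarith

end step

end Crest.Agent.H3.BR
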